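import Vale.Agent.P345.Code

namespace Vale.Agent.P345

open Finset

lemma NP.bound {γ : Type} {f : (γ → ℕ) → ℕ} (hf : NP f) : ∃ c,
    (∀ k (y : γ → ℕ), (∀ j, y j < 2 ^ k) → f y < 2 ^ (c * (k + 1))) ∧
    ∀ {α : Type} (n K : (α → ℕ) → ℕ) [SFn n] [SFn K] (W : γ → (α → ℕ) → ℕ),
      (∀ j, SFn (W j)) → ∃ F : (α → ℕ) → ℕ, SFn F ∧ ∀ v k (x : ℕ → γ → ℕ),
      (∀ i < n v, ∀ j, x i j < 2 ^ k) → (∀ j, W j v = code (K v) (n v) fun i => x i j) →
      c * (k + 1) ≤ K v → F v = code (K v) (n v) fun i => f (x i) := by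
  induction hf with
  | proj j =>
    refine ⟨1, fun k y h => (h j).trans (Nat.pow_lt_pow_right (by norm_num) (by omega)),
      fun n K _ _ W hW => ⟨W j, hW j, fun v k x _ h _ => h j⟩⟩
  | const m =>
    refine ⟨m + 1, fun k y _ => Nat.lt_two_pow_self.trans_le
      (Nat.pow_le_pow_right (by norm_num) (by nlinarith)),
      fun n K _ _ W hW => ⟨fun v => m * ones (K v) (n v), inferInstance, fun v k x _ _ h => ?_⟩⟩
    beta_reduce
    rw [ones_eq (lt_of_lt_of_le (by positivity) h), ← code_mul]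
    simp
  | add _ _ h1 h2 =>
    obtain ⟨c, b1, h1⟩ := h1
    obtain ⟨d, b2, h2⟩ := h2
    refine ⟨c + d + 1, fun k y h => ?_, fun n K _ _ W hW => ?_⟩
    · have k1 := (b1 k y h).trans_le (Nat.pow_le_pow_right (by norm_num)
        (show c * (k + 1) ≤ (c + d) * (k + 1) by gcongr; omega))
      have k2 := (b2 k y h).trans_le (Nat.pow_le_pow_right (by norm_num)
        (show d * (k + 1) ≤ (c + d) * (k + 1) by gcongr; omega))
      have k3 : 2 ^ ((c + d) * (k + 1) + 1) ≤ 2 ^ ((c + d + 1) * (k + 1)) :=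
        Nat.pow_le_pow_right (by norm_num) (by nlinarith)
      beta_reduce
      omega
    · obtain ⟨F, _, hF⟩ := h1 n K W hW
      obtain ⟨G, _, hG⟩ := h2 n K W hW
      refine ⟨fun v => F v + G v, inferInstance, fun v k x k1 k2 k3 => ?_⟩
      beta_reduce
      rw [hF v k x k1 k2 (by nlinarith), hG v k x k1 k2 (by nlinarith), code_add]
  | mul _ _ h1 h2 =>
    obtain ⟨c, b1, h1⟩ := h1
    obtain ⟨d, b2, h2⟩ := h2
    refine ⟨c + d, fun k y h => ?_, fun n K _ _ W hW => ?_⟩
    · rw [add_mul, pow_add]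
      exact Nat.mul_lt_mul'' (b1 k y h) (b2 k y h)
    · obtain ⟨F, _, hF⟩ := h1 n K W hW
      obtain ⟨G, _, hG⟩ := h2 n K W hW
      refine ⟨fun v => dmul (K v) (n v) (F v) (G v), inferInstance, fun v k x k1 k2 k3 => ?_⟩
      beta_reduce
      rw [hF v k x k1 k2 (by nlinarith), hG v k x k1 k2 (by nlinarith), dmul_code]
      · exact fun i hi => (b2 k _ (k1 i hi)).trans_le
          (Nat.pow_le_pow_right (by norm_num) (by nlinarith))
      · intro i hi j hj
        refine (Nat.mul_lt_mul'' (b2 k _ (k1 j hj)) (b1 k _ (k1 i hi))).trans_le ?_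
        rw [← pow_add]
        exact Nat.pow_le_pow_right (by norm_num) (by nlinarith)

theorem SF.ball {α : Type} [Finite α] (R : (α → ℕ) → ℕ → Prop)
    (h : SF fun u : Option α → ℕ => R (fun a => u (some a)) (u none))
    (n : (α → ℕ) → ℕ) [hn : SFn n] : SF fun v => ∀ i < n v, R v i := by
  obtain ⟨β, hβ, p, q, hp, hq, h1, h2⟩ := h.out
  have := Fintype.ofFinite α
  have := Fintype.ofFinite β
  obtain ⟨c, b1, hc⟩ := hp.bound
  obtain ⟨d, b2, hd⟩ := hq.bound
  let N : (α ⊕ Option β → ℕ) → ℕ := fun u => n fun a => u (Sum.inl a)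
  have iN : SFn N := hn.re Sum.inl
  have iS : SFn fun u : α ⊕ Option β → ℕ => ∑ a, u (Sum.inl a) := SFn.sum _ fun a => inferInstance
  have iT : SFn fun u : α ⊕ Option β → ℕ => ∑ b, u (Sum.inr (some b)) :=
    SFn.sum _ fun a => inferInstance
  let k : (α ⊕ Option β → ℕ) → ℕ := fun u => u (Sum.inr none) + N u + ∑ a, u (Sum.inl a)
  have ik : SFn k := inferInstanceAs (SFn fun u => u (Sum.inr none) + N u + ∑ a, u (Sum.inl a))
  let K : (α ⊕ Option β → ℕ) → ℕ := fun u => (c + d + 1) * (k u + 1) + Fintype.card β + N u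
  have iK : SFn K := inferInstanceAs (SFn fun u => (c + d + 1) * (k u + 1) + Fintype.card β + N u)
  let W : Option α ⊕ β → (α ⊕ Option β → ℕ) → ℕ := Sum.elim
    (fun o => o.elim (fun u => idx (K u) (N u)) fun a u => u (Sum.inl a) * ones (K u) (N u))
    fun b u => u (Sum.inr (some b))
  have iW : ∀ j, SFn (W j) := by
    rintro ((_ | a) | b)
    · exact inferInstanceAs (SFn fun u => idx (K u) (N u))
    · exact inferInstanceAs (SFn fun u => u (Sum.inl a) * ones (K u) (N u))
    · exact inferInstanceAs (SFn fun u => u (Sum.inr (some b)))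
  obtain ⟨F, iF, hF⟩ := hc N K W iW
  obtain ⟨G, iG, hG⟩ := hd N K W iW
  let Rel : (α ⊕ Option β → ℕ) → Prop := fun u =>
    (∀ b, u (Sum.inr (some b)) &&& mask (k u) (K u) (N u) = u (Sum.inr (some b))) ∧
    (∑ b, u (Sum.inr (some b))) % (2 ^ K u - 1) = u (Sum.inr none) ∧ F u = G u
  have iA : SF fun u : α ⊕ Option β → ℕ =>
      ∀ b, u (Sum.inr (some b)) &&& mask (k u) (K u) (N u) = u (Sum.inr (some b)) :=
    SF.all fun b => inferInstance
  have iR : SF Rel := SF.and _ _ (h := iA)
  have key : ∀ u, Rel u ↔ ∃ x : ℕ → β → ℕ,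
      (∀ i < N u, p (Sum.elim (fun o => o.elim i fun a => u (Sum.inl a)) (x i)) =
        q (Sum.elim (fun o => o.elim i fun a => u (Sum.inl a)) (x i))) ∧
      u (Sum.inr none) = ∑ b, ∑ i ∈ range (N u), x i b ∧
      ∀ b, u (Sum.inr (some b)) = code (K u) (N u) fun i => x i b := by
    intro u
    have e1 : k u ≤ K u := by simp only [K]; nlinarith
    have e2 : (univ : Finset β).card + N u + k u + 1 ≤ K u := by
      simp only [K, card_univ]; nlinarith
    have aux : ∀ x : ℕ → β → ℕ, (∀ b, ∀ i < N u, x i b < 2 ^ k u) →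
        (∀ b, u (Sum.inr (some b)) = code (K u) (N u) fun i => x i b) →
        ((∑ b, u (Sum.inr (some b))) % (2 ^ K u - 1) = ∑ b, ∑ i ∈ range (N u), x i b) ∧
        (F u = G u ↔ ∀ i < N u,
          p (Sum.elim (fun o => o.elim i fun a => u (Sum.inl a)) (x i)) =
          q (Sum.elim (fun o => o.elim i fun a => u (Sum.inl a)) (x i))) := by
      intro x hx hu
      refine ⟨by simp only [hu]; exact code_sum _ hx e2, ?_⟩
      have k1 : ∀ i < N u, ∀ j, Sum.elim (fun o : Option α => o.elim i fun a => u (Sum.inl a))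
          (x i) j < 2 ^ k u := by
        rintro i hi ((_ | a) | b)
        · exact lt_of_le_of_lt (show i ≤ k u by simp only [k]; omega) Nat.lt_two_pow_self
        · refine lt_of_le_of_lt (show u (Sum.inl a) ≤ k u from ?_) Nat.lt_two_pow_self
          exact (single_le_sum (f := fun a => u (Sum.inl a)) (fun _ _ => Nat.zero_le _)
            (mem_univ a)).trans (Nat.le_add_left _ _)
        · exact hx b i hi
      have k2 : ∀ j, W j u = code (K u) (N u) fun i =>
          Sum.elim (fun o : Option α => o.elim i fun a => u (Sum.inl a)) (x i) j := by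
        rintro ((_ | a) | b)
        · exact idx_eq (by omega) _
        · change u (Sum.inl a) * ones (K u) (N u) = code _ _ fun _ => u (Sum.inl a)
          rw [ones_eq (by omega), ← code_mul]; simp
        · exact hu b
      have k3 : c * (k u + 1) ≤ K u := by simp only [K]; nlinarith
      have k4 : d * (k u + 1) ≤ K u := by simp only [K]; nlinarith
      rw [hF u _ _ k1 k2 k3, hG u _ _ k1 k2 k4]
      refine ⟨fun e i hi => code_inj (fun i hi => ?_) (fun i hi => ?_) e hi, code_congr⟩
      · exact (b1 _ _ (k1 i hi)).trans_le (Nat.pow_le_pow_right (by norm_num) k3)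
      · exact (b2 _ _ (k1 i hi)).trans_le (Nat.pow_le_pow_right (by norm_num) k4)
    constructor
    · rintro ⟨r1, r2, r3⟩
      choose x hx hu using fun b => (mask_iff e1).1 (r1 b)
      obtain ⟨k1, k2⟩ := aux (fun i b => x b i) hx hu
      exact ⟨_, k2.1 r3, r2.symm.trans k1, hu⟩
    · rintro ⟨x, r1, r2, r3⟩
      have hx : ∀ b, ∀ i < N u, x i b < 2 ^ k u := by
        intro b i hi
        refine lt_of_le_of_lt ?_ Nat.lt_two_pow_self
        have k1 := single_le_sum (f := fun i => x i b) (fun _ _ => Nat.zero_le _) (mem_range.2 hi)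
        have k2 := single_le_sum (f := fun b => ∑ i ∈ range (N u), x i b)
          (fun _ _ => Nat.zero_le _) (mem_univ b)
        simp only [k]
        omega
      obtain ⟨k1, k2⟩ := aux x hx r3
      exact ⟨fun b => (mask_iff e1).2 ⟨_, hx b, r3 b⟩, k1.trans r2.symm, k2.2 r1⟩
  refine (SF.ex (fun v w => Rel (Sum.elim v w)) (iR.congr fun u => ?_)
    fun v w w' r r' => ?_).congr fun v => ?_
  · rw [show Sum.elim (fun i => u (Sum.inl i)) (fun j => u (Sum.inr j)) = u from
      Sum.elim_comp_inl_inr u]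
  · obtain ⟨x, r1, r2, r3⟩ := (key _).1 r
    obtain ⟨y, s1, s2, s3⟩ := (key _).1 r'
    have e : ∀ i < n v, x i = y i := fun i hi => h2 _ _ _ (r1 i hi) (s1 i hi)
    have e0 : w none = w' none := r2.trans ((sum_congr rfl fun b _ => sum_congr rfl fun i hi => by
      rw [e i (mem_range.1 hi)]).trans s2.symm)
    funext o
    rcases o with _ | b
    · exact e0
    · refine (r3 b).trans (Eq.trans ?_ (s3 b).symm)
      have : K (Sum.elim v w) = K (Sum.elim v w') := by simp only [K, k, N, Sum.elim_inl,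
        Sum.elim_inr, e0]
      rw [this]
      exact code_congr fun i hi => by rw [e i hi]
  · constructor
    · rintro ⟨w, r⟩ i hi
      obtain ⟨x, r1, -⟩ := (key _).1 r
      exact (h1 _).2 ⟨_, r1 i hi⟩
    · intro hR
      have : ∀ i, ∃ w : β → ℕ, i < n v → p (Sum.elim (fun o => o.elim i v) w) =
          q (Sum.elim (fun o => o.elim i v) w) := fun i => by
        by_cases hi : i < n v
        · obtain ⟨w, hw⟩ := (h1 fun o => o.elim i v).1 (hR i hi)
          exact ⟨w, fun _ => hw⟩
        · exact ⟨0, fun h => absurd h hi⟩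
      choose x hx using this
      let s := ∑ b, ∑ i ∈ range (n v), x i b
      exact ⟨fun o => o.elim s fun b => code (K (Sum.elim v fun _ => s)) (n v) fun i => x i b,
        (key _).2 ⟨x, hx, rfl, fun b => rfl⟩⟩

end Vale.Agent.P345
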