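import Vale.Agent.P345.Pow

namespace Vale.Agent.P345

open Finset

def code (K n : ℕ) (x : ℕ → ℕ) : ℕ := ∑ i ∈ range n, x i * 2 ^ (K * i)

def dig (K W i : ℕ) : ℕ := W / 2 ^ (K * i) % 2 ^ K

instance sfn_dig {α : Type} (f g k : (α → ℕ) → ℕ) [SFn f] [SFn g] [SFn k] :
    SFn fun v => dig (f v) (g v) (k v) := by unfold dig; infer_instance

@[simp] lemma code_zero (K : ℕ) (x : ℕ → ℕ) : code K 0 x = 0 := rfl

lemma code_succ (K n : ℕ) (x : ℕ → ℕ) :
    code K (n + 1) x = x 0 + 2 ^ K * code K n fun i => x (i + 1) := by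
  rw [code, sum_range_succ', code, mul_sum, add_comm]
  congr 1
  · simp
  · exact sum_congr rfl fun i _ => by ring

lemma code_succ' (K n : ℕ) (x : ℕ → ℕ) : code K (n + 1) x = code K n x + x n * 2 ^ (K * n) :=
  sum_range_succ _ _

lemma code_congr {K n : ℕ} {x y : ℕ → ℕ} (h : ∀ i < n, x i = y i) : code K n x = code K n y :=
  sum_congr rfl fun i hi => by rw [h i (mem_range.1 hi)]

lemma code_add (K n : ℕ) (x y : ℕ → ℕ) :
    code K n (fun i => x i + y i) = code K n x + code K n y := by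
  simp [code, add_mul, sum_add_distrib]

lemma code_mul (K n c : ℕ) (x : ℕ → ℕ) : code K n (fun i => c * x i) = c * code K n x := by
  simp [code, mul_sum, mul_assoc]

lemma code_lt {K n : ℕ} {x : ℕ → ℕ} (h : ∀ i < n, x i < 2 ^ K) : code K n x < 2 ^ (K * n) := by
  induction n with
  | zero => simp
  | succ n ih =>
    have h1 := ih fun i hi => h i (by omega)
    have h2 : (x n + 1) * 2 ^ (K * n) ≤ 2 ^ K * 2 ^ (K * n) :=
      Nat.mul_le_mul_right _ (h n (by omega))
    rw [code_succ', mul_add, mul_one, pow_add, mul_comm (2 ^ (K * n))]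
    linarith

lemma dig_lt (K W i : ℕ) : dig K W i < 2 ^ K := Nat.mod_lt _ (Nat.two_pow_pos _)

lemma dig_succ (K W i : ℕ) : dig K W (i + 1) = dig K (W / 2 ^ K) i := by
  rw [dig, dig, Nat.div_div_eq_div_mul, ← pow_add]; congr 3; ring

lemma dig_code {K n : ℕ} {x : ℕ → ℕ} (h : ∀ i < n, x i < 2 ^ K) {i : ℕ} (hi : i < n) :
    dig K (code K n x) i = x i := by
  induction i generalizing n x with
  | zero =>
    obtain ⟨n, rfl⟩ : ∃ m, n = m + 1 := ⟨n - 1, by omega⟩
    simp [dig, code_succ, Nat.mod_eq_of_lt (h 0 hi)]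
  | succ i ih =>
    obtain ⟨n, rfl⟩ : ∃ m, n = m + 1 := ⟨n - 1, by omega⟩
    rw [dig_succ, code_succ, Nat.add_mul_div_left _ _ (Nat.two_pow_pos _),
      Nat.div_eq_of_lt (h 0 (by omega)), zero_add]
    exact ih (fun j hj => h _ (by omega)) (by omega)

lemma code_dig (K n W : ℕ) : code K n (dig K W) = W % 2 ^ (K * n) := by
  induction n with
  | zero => simp [Nat.mod_one]
  | succ n ih =>
    rw [code_succ', ih, mul_add, mul_one, pow_add, Nat.mod_mul, dig, mul_comm (2 ^ (K * n))]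

lemma code_inj {K n : ℕ} {x y : ℕ → ℕ} (hx : ∀ i < n, x i < 2 ^ K) (hy : ∀ i < n, y i < 2 ^ K)
    (h : code K n x = code K n y) {i : ℕ} (hi : i < n) : x i = y i := by
  rw [← dig_code hx hi, h, dig_code hy hi]

lemma code_modEq {K K' : ℕ} (h : K ≤ K') (n : ℕ) (x : ℕ → ℕ) :
    code K' n x ≡ code K n x [MOD 2 ^ K' - 2 ^ K] := by
  induction n with
  | zero => rfl
  | succ n ih =>
    rw [code_succ', code_succ', pow_mul, pow_mul]
    exact ih.add (Nat.ModEq.mul_left _ (Nat.ModEq.pow _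
      ((Nat.modEq_iff_dvd' (Nat.pow_le_pow_right (by norm_num) h)).2 dvd_rfl).symm))

instance sfn_choose {α : Type} (f g : (α → ℕ) → ℕ) [SFn f] [SFn g] :
    SFn fun v => Nat.choose (f v) (g v) := by
  refine (inferInstance : SFn fun v => dig (f v + 1) ((2 ^ (f v + 1) + 1) ^ f v) (g v)).congr
    fun v => ?_
  generalize f v = n
  generalize g v = k
  have h : (2 ^ (n + 1) + 1) ^ n = code (n + 1) (n + 1 + k) (Nat.choose n) := by
    rw [code, sum_range_add, add_pow]
    have : ∀ i, n.choose (n + 1 + i) = 0 := fun i => Nat.choose_eq_zero_of_lt (by omega)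
    simp only [this, pow_mul, one_pow, mul_one, zero_mul, sum_const_zero, add_zero, Nat.cast_id]
    exact sum_congr rfl fun i _ => mul_comm _ _
  rw [h, dig_code (fun i _ => (Nat.choose_le_two_pow n i).trans_lt
    (Nat.pow_lt_pow_right (by norm_num) (by omega))) (by omega)]

lemma land_rec (x y : ℕ) : x &&& y = 2 * (x / 2 &&& y / 2) + x % 2 * (y % 2) := by
  have h1 := @Nat.and_div_two_pow x y 1
  have h2 := @Nat.and_mod_two_pow x y 1
  simp only [pow_one] at h1 h2
  rw [← h1]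
  have h3 : x % 2 &&& y % 2 = x % 2 * (y % 2) := by
    rcases Nat.mod_two_eq_zero_or_one x with h | h <;>
      rcases Nat.mod_two_eq_zero_or_one y with h' | h' <;> simp [h, h']
  omega

lemma dj_rec {a b : ℕ} : a &&& b = 0 ↔ a / 2 &&& b / 2 = 0 ∧ (a % 2 = 0 ∨ b % 2 = 0) := by
  rw [land_rec, ← mul_eq_zero]; omega

lemma choose_odd (a b : ℕ) : (a + b).choose a % 2 = 1 ↔ a &&& b = 0 := by
  induction h : a + b using Nat.strong_induction_on generalizing a b with
  | _ n ih =>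
  subst h
  rcases Nat.eq_zero_or_pos (a + b) with h0 | h0
  · obtain ⟨rfl, rfl⟩ : a = 0 ∧ b = 0 := by omega
    simp
  have h1 : (a + b).choose a % 2 = _ :=
    Choose.choose_modEq_choose_mod_mul_choose_div_nat (n := a + b) (k := a) (p := 2)
  rw [h1, dj_rec]
  by_cases h2 : a % 2 = 0 ∨ b % 2 = 0
  · rw [show (a + b) / 2 = a / 2 + b / 2 by omega, ← ih _ (by omega) _ _ rfl]
    have : ((a + b) % 2).choose (a % 2) = 1 := by
      rcases Nat.mod_two_eq_zero_or_one a with h | h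
      · simp [h]
      · rw [h, show (a + b) % 2 = 1 by omega]; rfl
    simp [this, h2]
  · rw [show (a + b) % 2 = 0 by omega, show a % 2 = 1 by omega]
    simp
    omega

lemma land_of_dj (z a b : ℕ) (h1 : z &&& a = 0) (h2 : z &&& b = 0) (h3 : a &&& b = 0) :
    (z + a) &&& (z + b) = z := by
  induction h : z + a + b using Nat.strong_induction_on generalizing z a b with
  | _ n ih =>
  subst h
  rcases Nat.eq_zero_or_pos (z + a + b) with h0 | h0
  · obtain ⟨rfl, rfl, rfl⟩ : z = 0 ∧ a = 0 ∧ b = 0 := by omega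
    simp
  rw [dj_rec] at h1 h2 h3
  rw [land_rec, show (z + a) / 2 = z / 2 + a / 2 by omega, show (z + b) / 2 = z / 2 + b / 2 by omega,
    ih _ (by omega) _ _ _ h1.1 h2.1 h3.1 rfl]
  rcases Nat.mod_two_eq_zero_or_one (z + a) with h | h <;>
    rcases Nat.mod_two_eq_zero_or_one (z + b) with h' | h' <;> rw [h, h'] <;> omega

lemma dj_of_land (x y : ℕ) : ∃ a b, x = (x &&& y) + a ∧ y = (x &&& y) + b ∧
    (x &&& y) &&& a = 0 ∧ (x &&& y) &&& b = 0 ∧ a &&& b = 0 := by
  induction h : x + y using Nat.strong_induction_on generalizing x y with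
  | _ n ih =>
  subst h
  rcases Nat.eq_zero_or_pos (x + y) with h0 | h0
  · obtain ⟨rfl, rfl⟩ : x = 0 ∧ y = 0 := by omega
    simp
  obtain ⟨a, b, h1, h2, h3, h4, h5⟩ := ih _ (by omega) (x / 2) (y / 2) rfl
  have h6 := land_rec x y
  generalize x &&& y = z at *
  generalize x / 2 &&& y / 2 = z' at *
  refine ⟨x - z, y - z, ?_⟩
  rw [dj_rec, dj_rec (a := z), dj_rec (a := x - z)]
  rcases Nat.mod_two_eq_zero_or_one x with h | h <;>
    rcases Nat.mod_two_eq_zero_or_one y with h' | h' <;> rw [h, h'] at h6 <;>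
    rw [show z / 2 = z' by omega, show (x - z) / 2 = a by omega, show (y - z) / 2 = b by omega] <;>
    refine ⟨by omega, by omega, ⟨h3, by omega⟩, ⟨h4, by omega⟩, h5, by omega⟩

instance sfn_land {α : Type} (f g : (α → ℕ) → ℕ) [SFn f] [SFn g] : SFn fun v => f v &&& g v := by
  refine SFn.of2 (· &&& ·) ((inferInstance : SF fun v : Fin 3 → ℕ => (v 2 ≤ v 0 ∧ v 2 ≤ v 1) ∧
    (v 2 + (v 0 - v 2)).choose (v 2) % 2 = 1 ∧ (v 2 + (v 1 - v 2)).choose (v 2) % 2 = 1 ∧
    (v 0 - v 2 + (v 1 - v 2)).choose (v 0 - v 2) % 2 = 1).congr fun v => ?_) f g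
  simp only [choose_odd]
  constructor
  · rintro ⟨⟨h1, h2⟩, h3, h4, h5⟩
    have := land_of_dj _ _ _ h3 h4 h5
    rwa [Nat.add_sub_cancel' h1, Nat.add_sub_cancel' h2] at this
  · intro h
    obtain ⟨a, b, h1, h2, h3⟩ := dj_of_land (v 0) (v 1)
    rw [h] at h1 h2 h3
    rw [show v 0 - v 2 = a by omega, show v 1 - v 2 = b by omega]
    exact ⟨by omega, h3⟩

lemma land_split {K a b : ℕ} (A B : ℕ) (ha : a < 2 ^ K) (hb : b < 2 ^ K) :
    (a + 2 ^ K * A) &&& (b + 2 ^ K * B) = (a &&& b) + 2 ^ K * (A &&& B) := by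
  rw [← Nat.mod_add_div (_ &&& _) (2 ^ K), Nat.and_div_two_pow, Nat.and_mod_two_pow]
  simp [Nat.add_mul_div_left _ _ (Nat.two_pow_pos K), Nat.div_eq_of_lt ha, Nat.div_eq_of_lt hb,
    Nat.mod_eq_of_lt ha, Nat.mod_eq_of_lt hb]

lemma land_code {K n : ℕ} {x y : ℕ → ℕ} (hx : ∀ i < n, x i < 2 ^ K) (hy : ∀ i < n, y i < 2 ^ K) :
    code K n x &&& code K n y = code K n fun i => x i &&& y i := by
  induction n generalizing x y with
  | zero => simp
  | succ n ih =>
    rw [code_succ, code_succ, code_succ, land_split _ _ (hx 0 (by omega)) (hy 0 (by omega)),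
      ih (fun i hi => hx _ (by omega)) (fun i hi => hy _ (by omega))]

def ones (K n : ℕ) : ℕ := (2 ^ (K * n) - 1) / (2 ^ K - 1)

instance sfn_ones {α : Type} (f g : (α → ℕ) → ℕ) [SFn f] [SFn g] :
    SFn fun v => ones (f v) (g v) := by unfold ones; infer_instance

lemma ones_eq {K : ℕ} (hK : 0 < K) (n : ℕ) : ones K n = code K n fun _ => 1 := by
  have h := Nat.one_lt_two_pow hK.ne'
  rw [ones, code, pow_mul, ← Nat.geomSum_eq h]
  simp [pow_mul]

def mask (k K n : ℕ) : ℕ := (2 ^ k - 1) * ones K n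

instance sfn_mask {α : Type} (f g k : (α → ℕ) → ℕ) [SFn f] [SFn g] [SFn k] :
    SFn fun v => mask (f v) (g v) (k v) := by unfold mask; infer_instance

lemma mask_eq {k K : ℕ} (h : k ≤ K) (n : ℕ) : mask k K n = code K n fun _ => 2 ^ k - 1 := by
  rcases Nat.eq_zero_or_pos k with rfl | h0
  · simp [mask, code]
  · rw [mask, ones_eq (by omega), ← code_mul]; simp

lemma mask_iff {k K n W : ℕ} (h : k ≤ K) :
    W &&& mask k K n = W ↔ ∃ x, (∀ i < n, x i < 2 ^ k) ∧ W = code K n x := by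
  have h1 : 2 ^ k ≤ 2 ^ K := Nat.pow_le_pow_right (by norm_num) h
  have h2 := Nat.two_pow_pos k
  have h3 : ∀ i < n, (fun _ => 2 ^ k - 1 : ℕ → ℕ) i < 2 ^ K := fun i _ => by
    beta_reduce; omega
  rw [mask_eq h]
  constructor
  · intro e
    have h4 : W < 2 ^ (K * n) := e ▸ Nat.and_le_right.trans_lt (code_lt h3)
    have h5 : W = code K n (dig K W) := by rw [code_dig, Nat.mod_eq_of_lt h4]
    rw [h5, land_code (fun i _ => dig_lt _ _ _) h3, ← h5] at e
    exact ⟨_, fun i _ => Nat.and_le_right.trans_lt (by omega), e.symm⟩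
  · rintro ⟨x, hx, rfl⟩
    rw [land_code (fun i hi => (hx i hi).trans_le h1) h3]
    exact code_congr fun i hi => by
      rw [Nat.and_two_pow_sub_one_eq_mod, Nat.mod_eq_of_lt (hx i hi)]

lemma code_mod {K K' n : ℕ} {x : ℕ → ℕ} (h : K * (n + 1) ≤ K') (hx : ∀ i < n, x i < 2 ^ K) :
    code K' n x % (2 ^ K' - 2 ^ K) = code K n x := by
  rcases Nat.eq_zero_or_pos n with rfl | hn
  · simp
  rcases Nat.eq_zero_or_pos K with rfl | hK
  · have : ∀ K, code K n x = 0 := fun K => sum_eq_zero fun i hi => by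
      have := hx i (mem_range.1 hi)
      rw [show x i = 0 by omega, zero_mul]
    simp [this]
  rw [code_modEq (le_trans (Nat.le_mul_of_pos_right _ (by omega)) h), Nat.mod_eq_of_lt]
  have h1 := code_lt hx
  have h2 : 2 ^ K ≤ 2 ^ (K * n) := Nat.pow_le_pow_right (by norm_num) (Nat.le_mul_of_pos_right _ hn)
  have h3 : 2 ^ (K * n + 1) ≤ 2 ^ K' := Nat.pow_le_pow_right (by norm_num) (by nlinarith)
  omega

def resp (K n W : ℕ) : ℕ := code (K * (n + 1)) n (dig K W)

instance sfn_resp {α : Type} (f g k : (α → ℕ) → ℕ) [SFn f] [SFn g] [SFn k] :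
    SFn fun v => resp (f v) (g v) (k v) := by
  refine SFn.of3 resp ((inferInstance : SF fun v : Fin 4 → ℕ =>
    v 3 &&& mask (v 0) (v 0 * (v 1 + 1)) (v 1) = v 3 ∧
      v 3 % (2 ^ (v 0 * (v 1 + 1)) - 2 ^ v 0) = v 2 % 2 ^ (v 0 * v 1)).congr fun v => ?_) f g k
  rw [mask_iff (Nat.le_mul_of_pos_right _ (by omega)), ← code_dig, resp]
  constructor
  · rintro ⟨⟨x, hx, e⟩, h⟩
    rw [e, code_mod le_rfl hx] at h
    rw [e]
    exact code_congr fun i hi => (code_inj hx (fun i _ => dig_lt _ _ _) h hi).symm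
  · intro h
    rw [← h]
    exact ⟨⟨_, fun i _ => dig_lt _ _ _, rfl⟩, code_mod le_rfl fun i _ => dig_lt _ _ _⟩

def dmul (K n A C : ℕ) : ℕ :=
  ((A * resp K n C) &&& mask K (K * (n + 2)) n) % (2 ^ (K * (n + 2)) - 2 ^ K)

instance sfn_dmul {α : Type} (f g k l : (α → ℕ) → ℕ) [SFn f] [SFn g] [SFn k] [SFn l] :
    SFn fun v => dmul (f v) (g v) (k v) (l v) := by unfold dmul; infer_instance

lemma code_shift (K K' n : ℕ) (x : ℕ → ℕ) :
    code K' n (fun j => x j * 2 ^ (K * j)) = code (K' + K) n x :=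
  sum_congr rfl fun i _ => by rw [add_mul, pow_add]; ring

lemma code_single {K n j : ℕ} (hj : j < n) (c : ℕ) :
    code K n (fun i => if i = j then c else 0) = c * 2 ^ (K * j) := by
  rw [code, sum_eq_single j] <;> simp +contextual [hj]

lemma dmul_code {K n : ℕ} {a c : ℕ → ℕ} (hc : ∀ i < n, c i < 2 ^ K)
    (h : ∀ i < n, ∀ j < n, c j * a i < 2 ^ K) :
    dmul K n (code K n a) (code K n c) = code K n fun i => a i * c i := by
  have h2 := Nat.two_pow_pos K
  have e1 : code K n a * resp K n (code K n c) =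
      code (K * (n + 1)) n fun j => code K n fun i => c j * a i := by
    rw [resp, ← code_mul]
    exact code_congr fun j hj => by rw [dig_code hc hj, code_mul, mul_comm]
  have e2 : mask K (K * (n + 2)) n =
      code (K * (n + 1)) n fun j => code K n fun i => if i = j then 2 ^ K - 1 else 0 := by
    rw [mask_eq (Nat.le_mul_of_pos_right _ (by omega)), show K * (n + 2) = K * (n + 1) + K by ring,
      ← code_shift]
    exact code_congr fun j hj => (code_single hj _).symm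
  have hle : 2 ^ (K * n) ≤ 2 ^ (K * (n + 1)) :=
    Nat.pow_le_pow_right (by norm_num) (Nat.mul_le_mul_left _ (by omega))
  have h3 : ∀ j, ∀ i < n, (if i = j then 2 ^ K - 1 else 0) < 2 ^ K := fun j i _ => by
    split_ifs <;> omega
  rw [dmul, e1, e2, land_code (fun j hj => (code_lt fun i hi => h i hi j hj).trans_le hle)
    (fun j hj => (code_lt (h3 j)).trans_le hle),
    code_congr (y := fun j => a j * c j * 2 ^ (K * j)) fun j hj => ?_, code_shift,
    show K * (n + 1) + K = K * (n + 2) by ring,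
    code_mod (Nat.mul_le_mul_left _ (by omega)) fun i hi => by rw [mul_comm]; exact h i hi i hi]
  rw [land_code (fun i hi => h i hi j hj) (h3 j), ← code_single hj]
  refine code_congr fun i hi => ?_
  split_ifs with e
  · subst e
    rw [Nat.and_two_pow_sub_one_eq_mod, Nat.mod_eq_of_lt (h i hi i hi), mul_comm]
  · simp

def idx (K n : ℕ) : ℕ := (n * 2 ^ (K * n) - 2 ^ K * ones K n) / (2 ^ K - 1)

instance sfn_idx {α : Type} (f g : (α → ℕ) → ℕ) [SFn f] [SFn g] :
    SFn fun v => idx (f v) (g v) := by unfold idx; infer_instance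

lemma idx_eq {K : ℕ} (hK : 0 < K) (n : ℕ) : idx K n = code K n fun i => i := by
  have h := Nat.one_lt_two_pow hK.ne'
  have h1 := code_succ K n fun i => i
  rw [code_succ', code_add, ← ones_eq hK, zero_add, mul_add] at h1
  rw [idx]
  apply Nat.div_eq_of_eq_mul_left (by omega)
  rw [Nat.mul_sub, mul_one, mul_comm _ (2 ^ K)]
  omega

lemma code_sum {k K n : ℕ} {ι : Type} (s : Finset ι) {x : ι → ℕ → ℕ}
    (hx : ∀ b, ∀ i < n, x b i < 2 ^ k) (hK : s.card + n + k + 1 ≤ K) :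
    (∑ b ∈ s, code K n (x b)) % (2 ^ K - 1) = ∑ b ∈ s, ∑ i ∈ range n, x b i := by
  have h1 : ∑ b ∈ s, code K n (x b) ≡ ∑ b ∈ s, ∑ i ∈ range n, x b i [MOD 2 ^ K - 1] :=
    Nat.ModEq.sum fun b _ => by simpa [code] using code_modEq (Nat.zero_le K) n (x b)
  rw [h1, Nat.mod_eq_of_lt]
  have h2 : ∑ b ∈ s, ∑ i ∈ range n, x b i ≤ s.card * (n * 2 ^ k) := by
    apply sum_le_card_nsmul
    intro b _
    simpa using sum_le_card_nsmul (range n) (x b) (2 ^ k) fun i hi => (hx b i (mem_range.1 hi)).le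
  have h3 : (s.card + 1) * (2 ^ n * 2 ^ k) ≤ 2 ^ s.card * (2 ^ n * 2 ^ k) :=
    Nat.mul_le_mul_right _ Nat.lt_two_pow_self
  have h4 : s.card * (n * 2 ^ k) ≤ s.card * (2 ^ n * 2 ^ k) := by
    gcongr; exact Nat.lt_two_pow_self.le
  have h5 : 2 ^ (s.card + n + k + 1) ≤ 2 ^ K := Nat.pow_le_pow_right (by norm_num) hK
  have h6 : 0 < 2 ^ n * 2 ^ k := by positivity
  rw [pow_succ, pow_add, pow_add, mul_assoc (2 ^ s.card)] at h5
  rw [add_mul] at h3
  omega

end Vale.Agent.P345
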