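import Mathlib

namespace Vale.Agent.P345

lemma clos (u1 v1 u2 v2 : ℚ) (h1 : v1^2 = 1 - 2*u1^4) (h2 : v2^2 = 1 - 2*u2^4) :
    ((1 - 2*u1^2*u2^2) * v1*v2 - 4*u1*u2*(u1^2+u2^2))^2 =
      (1 + 2*u1^2*u2^2)^4 - 2*(u1*v2+v1*u2)^4 := by
  grind

lemma assocU (u1 v1 u2 v2 u3 v3 : ℚ) (h1 : v1^2 = 1 - 2*u1^4) (h2 : v2^2 = 1 - 2*u2^4)
    (h3 : v3^2 = 1 - 2*u3^4) :
    ((u1*v2+v1*u2) * (1 + 2*u1^2*u2^2) * v3 +
      ((1 - 2*u1^2*u2^2) * v1*v2 - 4*u1*u2*(u1^2+u2^2)) * u3) *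
     ((1 + 2*u2^2*u3^2)^2 + 2 * (u2*v3+v2*u3)^2 * u1^2) =
    ((u2*v3+v2*u3) * (1 + 2*u2^2*u3^2) * v1 +
      ((1 - 2*u2^2*u3^2) * v2*v3 - 4*u2*u3*(u2^2+u3^2)) * u1) *
     ((1 + 2*u1^2*u2^2)^2 + 2 * (u1*v2+v1*u2)^2 * u3^2) := by
  grind

lemma cancelV (u1 v1 u2 v2 : ℚ) (h1 : v1^2 = 1 - 2*u1^4) (h2 : v2^2 = 1 - 2*u2^4) :
    (((1 + 2*u1^2*u2^2)^2 - 2 * (u1*v2+v1*u2)^2 * (-u2)^2) *
      ((1 - 2*u1^2*u2^2) * v1*v2 - 4*u1*u2*(u1^2+u2^2)) * v2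
      - 4 * (u1*v2+v1*u2) * (1 + 2*u1^2*u2^2) * (-u2) *
        ((u1*v2+v1*u2)^2 + (-u2)^2 * (1 + 2*u1^2*u2^2)^2)) =
    v1 * ((1 + 2*u1^2*u2^2)^2 + 2 * (u1*v2+v1*u2)^2 * (-u2)^2)^2 := by
  grind

lemma fracU (N M D u v : ℚ) (hD : 0 < D) :
    (N / D * v + M / D ^ 2 * u) / (1 + 2 * (N / D) ^ 2 * u ^ 2) =
      (N * D * v + M * u) / (D ^ 2 + 2 * N ^ 2 * u ^ 2) := by
  have : 0 < D ^ 2 + 2 * N ^ 2 * u ^ 2 := by positivity
  field_simp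

lemma fracV (N M D u v : ℚ) (hD : 0 < D) :
    ((1 - 2 * (N / D) ^ 2 * u ^ 2) * (M / D ^ 2) * v - 4 * (N / D) * u * ((N / D) ^ 2 + u ^ 2)) /
      (1 + 2 * (N / D) ^ 2 * u ^ 2) ^ 2 =
      ((D ^ 2 - 2 * N ^ 2 * u ^ 2) * M * v - 4 * N * D * u * (N ^ 2 + u ^ 2 * D ^ 2)) /
        (D ^ 2 + 2 * N ^ 2 * u ^ 2) ^ 2 := by
  have : 0 < D ^ 2 + 2 * N ^ 2 * u ^ 2 := by positivity
  field_simp

/-- rational points of a quartic of genus one -/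
@[ext] structure Pt where
  u : ℚ
  v : ℚ
  eq : v ^ 2 = 1 - 2 * u ^ 4

namespace Pt

instance : Add Pt := ⟨fun A B => ⟨(A.u * B.v + A.v * B.u) / (1 + 2 * A.u ^ 2 * B.u ^ 2),
  ((1 - 2 * A.u ^ 2 * B.u ^ 2) * A.v * B.v - 4 * A.u * B.u * (A.u ^ 2 + B.u ^ 2)) /
    (1 + 2 * A.u ^ 2 * B.u ^ 2) ^ 2, by
  have h : 0 < 1 + 2 * A.u ^ 2 * B.u ^ 2 := by positivity
  rw [div_pow, div_pow, clos _ _ _ _ A.eq B.eq]
  field_simp⟩⟩

instance : Zero Pt := ⟨⟨0, 1, by norm_num⟩⟩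
instance : Neg Pt := ⟨fun A => ⟨-A.u, A.v, by rw [A.eq]; ring⟩⟩

lemma add_u (A B : Pt) : (A + B).u = (A.u * B.v + A.v * B.u) / (1 + 2 * A.u ^ 2 * B.u ^ 2) := rfl
lemma add_v (A B : Pt) : (A + B).v =
    ((1 - 2 * A.u ^ 2 * B.u ^ 2) * A.v * B.v - 4 * A.u * B.u * (A.u ^ 2 + B.u ^ 2)) /
    (1 + 2 * A.u ^ 2 * B.u ^ 2) ^ 2 := rfl
@[simp] lemma zero_u : (0 : Pt).u = 0 := rfl
@[simp] lemma zero_v : (0 : Pt).v = 1 := rfl
@[simp] lemma neg_u (A : Pt) : (-A).u = -A.u := rfl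
@[simp] lemma neg_v (A : Pt) : (-A).v = A.v := rfl

lemma comm' (A B : Pt) : A + B = B + A := by
  ext
  · rw [add_u, add_u]; ring
  · rw [add_v, add_v]; ring

lemma add_u0 (A B : Pt) (h : B.u = 0) : (A + B).u = A.u * B.v := by simp [add_u, h]
lemma add_v0 (A B : Pt) (h : B.u = 0) : (A + B).v = A.v * B.v := by simp [add_v, h]

lemma add_zero' (A : Pt) : A + 0 = A := by
  ext
  · simp [add_u0]
  · simp [add_v0]

lemma add_neg' (A : Pt) : A + -A = 0 := by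
  ext
  · simp [add_u]; left; ring
  · have h : 0 < 1 + 2 * A.u ^ 2 * (-A.u) ^ 2 := by positivity
    rw [add_v, zero_v, neg_u, neg_v, div_eq_one_iff_eq (by positivity)]
    have := A.eq
    grind

lemma assoc_u (A B C : Pt) : (A + B + C).u = (A + (B + C)).u := by
  rw [comm' A (B + C), add_u (A + B), add_u (B + C), add_u, add_u, add_v, add_v,
    fracU _ _ _ _ _ (by positivity), fracU _ _ _ _ _ (by positivity),
    div_eq_div_iff (by positivity) (by positivity)]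
  exact assocU _ _ _ _ _ _ A.eq B.eq C.eq

lemma cancel (A B : Pt) : A + B + -B = A := by
  ext
  · rw [assoc_u, add_neg', add_zero']
  · rw [add_v (A + B), add_u, add_v, fracV _ _ _ _ _ (by positivity), div_eq_iff (by positivity)]
    exact cancelV _ _ _ _ A.eq B.eq

lemma assoc' (A B C : Pt) : A + B + C = A + (B + C) := by
  ext
  · exact assoc_u A B C
  by_cases h : C.u = 0
  · have h1 : C.v ^ 2 = 1 := by rw [C.eq, h]; norm_num
    rw [add_v0 _ _ h, add_v A (B + C), add_u0 _ _ h, add_v0 _ _ h, add_v, mul_pow, h1]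
    ring
  have h1 : (A + B + C + -C).u = (A + (B + C) + -C).u := by
    rw [cancel, assoc_u, cancel]
  rw [add_u (A + B + C), add_u (A + (B + C)), assoc_u,
    div_left_inj' (by positivity), add_right_inj] at h1
  exact mul_right_cancel₀ (neg_ne_zero.2 h) h1

instance : AddCommGroup Pt where
  add_assoc := assoc'
  zero_add A := by rw [comm', add_zero']
  add_zero := add_zero'
  nsmul := nsmulRec
  zsmul := zsmulRec
  neg_add_cancel A := by rw [comm', add_neg']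
  add_comm := comm'

def T : Pt := ⟨0, -1, by norm_num⟩
def P : Pt := ⟨2 / 3, 7 / 9, by norm_num⟩

lemma addT_u (A : Pt) : (A + T).u = -A.u := by rw [add_u0 _ _ rfl]; simp [T]
lemma addT_v (A : Pt) : (A + T).v = -A.v := by rw [add_v0 _ _ rfl]; simp [T]
lemma T_add_T : T + T = 0 := by
  ext
  · rw [addT_u]; simp [T]
  · rw [addT_v]; simp [T]

lemma eq_of_u {A B : Pt} (h : A.u = B.u) : A = B ∨ A = -B + T := by
  have : A.v ^ 2 = B.v ^ 2 := by rw [A.eq, B.eq, h]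
  rcases sq_eq_sq_iff_eq_or_eq_neg.1 this with h1 | h1
  · exact Or.inl (Pt.ext h h1)
  · exact Or.inr (Pt.ext (by simp [addT_u, h]) (by simp [addT_v, h1]))

/-- the height -/
def S (A : Pt) : ℕ := A.u.den

lemma S_pos (A : Pt) : 0 < S A := A.u.den_pos

lemma exists_w (A : Pt) : ∃ w : ℤ, A.v = w / (S A : ℚ) ^ 2 ∧
    w ^ 2 = (S A : ℤ) ^ 4 - 2 * A.u.num ^ 4 := by
  have hs : (S A : ℚ) ≠ 0 := by exact_mod_cast (S_pos A).ne'
  have h1 : (A.v * (S A : ℚ) ^ 2) ^ 2 = (((S A : ℤ) ^ 4 - 2 * A.u.num ^ 4 : ℤ) : ℚ) := by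
    have := Rat.mul_den_eq_num A.u
    push_cast
    rw [mul_pow, A.eq, ← this, S]
    ring
  have h2 : (A.v * (S A : ℚ) ^ 2).den = 1 := by
    have := congrArg Rat.den h1
    rw [Rat.den_pow, Rat.den_intCast] at this
    exact (pow_eq_one_iff_of_nonneg (Nat.zero_le _) two_ne_zero).1 this
  rw [Rat.den_eq_one_iff] at h2
  refine ⟨_, by rw [h2]; field_simp, ?_⟩
  rw [← h2] at h1
  exact_mod_cast h1

end Pt

lemma split4 {m n k j : ℕ} (h : m.Coprime n) (e : m * n = 2 ^ j * k ^ 4) (h2 : 2 ∣ n) :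
    ∃ a b, m = a ^ 4 ∧ n = 2 ^ j * b ^ 4 ∧ k = a * b := by
  have hm : (2 ^ j).Coprime m :=
    Nat.Coprime.pow_left _ (Nat.Coprime.coprime_dvd_left h2 h.symm)
  obtain ⟨n, rfl⟩ : 2 ^ j ∣ n := hm.dvd_of_dvd_mul_left ⟨_, e⟩
  have e' : m * n = k ^ 4 := by
    apply Nat.eq_of_mul_eq_mul_left (Nat.two_pow_pos j)
    rw [← e]; ring
  have hc : m.Coprime n := Nat.Coprime.coprime_mul_left_right h
  obtain ⟨a, rfl⟩ := exists_eq_pow_of_mul_eq_pow (Nat.isUnit_iff.2 hc) e'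
  obtain ⟨b, rfl⟩ := exists_eq_pow_of_mul_eq_pow (Nat.isUnit_iff.2 hc.symm)
    ((mul_comm _ _).trans e')
  refine ⟨a, b, rfl, rfl, ?_⟩
  rw [← mul_pow] at e'
  exact (Nat.pow_left_injective (by norm_num) e').symm

lemma split5 {x y k j : ℕ} (hj : 0 < j) (hx : x % 2 = 1) (hy : y % 2 = 1)
    (e : y ^ 2 + 2 ^ (j + 2) * k ^ 4 = x ^ 2) (hc : x.Coprime k) :
    ∃ a b, k = a * b ∧ x = a ^ 4 + 2 ^ j * b ^ 4 ∧
      (y + a ^ 4 = 2 ^ j * b ^ 4 ∨ y + 2 ^ j * b ^ 4 = a ^ 4) := by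
  have hle : y ≤ x := Nat.pow_le_pow_iff_left (two_ne_zero) |>.1 (by omega)
  obtain ⟨m, rfl⟩ : ∃ m, x = y + 2 * m := ⟨(x - y) / 2, by omega⟩
  have e1 : m * (y + m) = 2 ^ j * k ^ 4 := by
    rw [pow_add] at e
    nlinarith
  have hcop : m.Coprime (y + m) := by
    apply Nat.Coprime.eq_one_of_dvd (k := Nat.gcd m (y + m)) (m := y + 2 * m)
    · apply Nat.Coprime.coprime_dvd_left (k := 2 ^ j * k ^ 4)
      · rw [← e1]; exact (Nat.gcd_dvd_left _ _).mul_right _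
      · refine Nat.Coprime.mul_left (Nat.Coprime.pow_left _ ?_) (Nat.Coprime.pow_left _ hc.symm)
        rw [Nat.coprime_two_left, Nat.odd_iff]; exact hx
    · have := Nat.dvd_add (Nat.gcd_dvd_left m (y + m)) (Nat.gcd_dvd_right m (y + m))
      rwa [show m + (y + m) = y + 2 * m by ring] at this
  have h2 : 2 ∣ m * (y + m) := by
    rw [e1]; exact (dvd_pow_self 2 hj.ne').mul_right _
  rcases (Nat.Prime.dvd_mul Nat.prime_two).1 h2 with h | h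
  · obtain ⟨a, b, h1, h3, h4⟩ := split4 hcop.symm (by rw [mul_comm, e1]) h
    exact ⟨a, b, h4, by omega, Or.inr (by omega)⟩
  · obtain ⟨a, b, h1, h3, h4⟩ := split4 hcop e1 h
    exact ⟨a, b, h4, by omega, Or.inl (by omega)⟩

lemma par {s t w : ℕ} (e : w ^ 2 + 2 * t ^ 4 = s ^ 4) (hc : s.Coprime t) :
    s % 2 = 1 ∧ w % 2 = 1 ∧ t % 2 = 0 := by
  have h1 : ¬ (s % 2 = 0 ∧ t % 2 = 0) := fun h => by
    have := Nat.dvd_gcd (Nat.dvd_of_mod_eq_zero h.1) (Nat.dvd_of_mod_eq_zero h.2)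
    rw [hc] at this
    omega
  have e16 := congrArg (· % 16) e
  have hs : s % 2 = s % 4 % 2 := by omega
  have ht : t % 2 = t % 4 % 2 := by omega
  have hw : w % 2 = w % 8 % 2 := by omega
  have k1 : ∀ x : ℕ, x ^ 4 % 16 = (x % 4) ^ 4 % 16 := fun x => by
    conv_lhs => rw [← Nat.div_add_mod x 4]
    generalize x / 4 = q
    generalize x % 4 = r
    rw [show (4 * q + r) ^ 4 = r ^ 4 + 16 * (16 * q ^ 4 + 16 * q ^ 3 * r + 6 * q ^ 2 * r ^ 2 +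
      q * r ^ 3) by ring, Nat.add_mul_mod_self_left]
  have k2 : ∀ x : ℕ, x ^ 2 % 16 = (x % 8) ^ 2 % 16 := fun x => by
    conv_lhs => rw [← Nat.div_add_mod x 8]
    generalize x / 8 = q
    generalize x % 8 = r
    rw [show (8 * q + r) ^ 2 = r ^ 2 + 16 * (4 * q ^ 2 + q * r) by ring, Nat.add_mul_mod_self_left]
  beta_reduce at e16
  rw [Nat.add_mod, Nat.mul_mod 2, k1 s, k1 t, k2 w] at e16
  rw [hs, ht] at h1
  rw [hs, ht, hw]
  have := Nat.mod_lt s (by norm_num : 0 < 4)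
  have := Nat.mod_lt t (by norm_num : 0 < 4)
  have := Nat.mod_lt w (by norm_num : 0 < 8)
  generalize s % 4 = a at *
  generalize t % 4 = b at *
  generalize w % 8 = c at *
  interval_cases a <;> interval_cases b <;> interval_cases c <;> simp_all

lemma fermat {s t w : ℕ} (e : w ^ 2 + 2 * t ^ 4 = s ^ 4) (hc : s.Coprime t) :
    ∃ a c d : ℕ, t = 2 * a * c * d ∧ s = c ^ 4 + 2 * d ^ 4 ∧ 0 < c ∧
      (a ^ 2 + c ^ 4 = 2 * d ^ 4 ∨ a ^ 2 + 2 * d ^ 4 = c ^ 4) := by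
  obtain ⟨h1, h2, h3⟩ := par e hc
  obtain ⟨t, rfl⟩ : ∃ k, t = 2 * k := ⟨t / 2, by omega⟩
  have hc' : s.Coprime t := Nat.Coprime.coprime_mul_left_right hc
  obtain ⟨a, b, rfl, h4, -⟩ := split5 (x := s ^ 2) (y := w) (k := t) (j := 3) (by norm_num)
    (by simp [Nat.pow_mod, h1]) h2 (by rw [← pow_mul, ← e]; ring) (Nat.Coprime.pow_left _ hc')
  have ha : a % 2 = 1 := by
    by_contra h
    have h5 : a % 2 = 0 := by omega
    have := congrArg (· % 2) h4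
    simp [Nat.add_mod, Nat.mul_mod, Nat.pow_mod, h1, h5] at this
  obtain ⟨c, d, rfl, h5, h6⟩ := split5 (x := s) (y := a ^ 2) (k := b) (j := 1)
    (by norm_num) h1 (by simp [Nat.pow_mod, ha]) (by rw [h4]; ring)
    (Nat.Coprime.coprime_mul_left_right hc')
  refine ⟨a, c, d, by ring, by simpa using h5, Nat.pos_of_ne_zero ?_, by simpa using h6⟩
  rintro rfl
  omega

end Vale.Agent.P345
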