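import Vale.Agent.P345.Curve

namespace Vale.Agent.P345

lemma den_div (N : ℤ) (D : ℕ) (hD : 0 < D) : ((N : ℚ) / D).den = D / Nat.gcd N.natAbs D := by
  have : ((N : ℚ) / D) = Rat.divInt N D := by rw [Rat.divInt_eq_div]; simp
  rw [this, Rat.den_divInt, if_neg (by exact_mod_cast hD.ne'), Int.gcd_comm]
  rfl

lemma den_le (N : ℤ) (D : ℕ) (hD : 0 < D) : ((N : ℚ) / D).den ≤ D := by
  rw [den_div N D hD]; exact Nat.div_le_self _ _

lemma tw1 (a c d : ℚ) (h : a ^ 2 + c ^ 4 = 2 * d ^ 4) :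
    (-a * (c ^ 2 - 2 * d ^ 2) + 4 * d * c * (d ^ 2 + c ^ 2)) ^ 2 =
      (c ^ 2 + 2 * d ^ 2) ^ 4 - 2 * ((a - d * c)) ^ 4 := by
  grind

lemma tw2 (a c d N M D : ℚ) (h : a ^ 2 + c ^ 4 = 2 * d ^ 4) (hN : N = a - d * c)
    (hM : M = -a * (c ^ 2 - 2 * d ^ 2) + 4 * d * c * (d ^ 2 + c ^ 2)) (hD : D = c ^ 2 + 2 * d ^ 2) :
    (7 * (2 * N * M * D) * (D ^ 4 + 2 * N ^ 4) + 6 * ((D ^ 4 - 2 * N ^ 4) * M ^ 2 - 8 * N ^ 4 * D ^ 4)) *
      (c ^ 4 + 2 * d ^ 4) = 2 * a * c * d * (9 * (D ^ 4 + 2 * N ^ 4) ^ 2 + 8 * (2 * N * M * D) ^ 2) := by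
  subst hN hM hD
  grind

namespace Pt

lemma addP_u (A : Pt) : (A + P).u = (7 * A.u + 6 * A.v) / (9 + 8 * A.u ^ 2) := by
  rw [add_u, P, div_eq_div_iff (by positivity) (by positivity)]; ring

lemma subP_u (A : Pt) : (A - P).u = (7 * A.u - 6 * A.v) / (9 + 8 * A.u ^ 2) := by
  rw [sub_eq_add_neg, add_u, neg_u, neg_v, P, div_eq_div_iff (by positivity) (by positivity)]; ring

def H : AddSubgroup Pt := AddSubgroup.closure {P, T}

lemma P_mem : P ∈ H := AddSubgroup.subset_closure (by simp)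
lemma T_mem : T ∈ H := AddSubgroup.subset_closure (by simp)

lemma mem_of_u {A B : Pt} (h : |A.u| = B.u) (hB : B ∈ H) : A ∈ H := by
  have key : ∀ A : Pt, A.u = B.u → A ∈ H := fun A h => by
    rcases eq_of_u h with rfl | rfl
    · exact hB
    · exact add_mem (neg_mem hB) T_mem
  rcases abs_choice A.u with h1 | h1
  · exact key A (h1 ▸ h)
  · exact neg_mem_iff.1 (key (-A) (by rw [neg_u, ← h1, h]))

lemma abs_u (A : Pt) : |A.u| = (A.u.num.natAbs : ℚ) / S A := by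
  conv_lhs => rw [← Rat.num_div_den A.u]
  rw [abs_div, S, Nat.cast_natAbs, Int.cast_abs, Nat.abs_cast]

lemma nat_eq (A : Pt) {w : ℤ} (hw : w ^ 2 = (S A : ℤ) ^ 4 - 2 * A.u.num ^ 4) :
    w.natAbs ^ 2 + 2 * A.u.num.natAbs ^ 4 = S A ^ 4 := by
  zify
  rw [sq_abs, hw, show |A.u.num| ^ 4 = A.u.num ^ 4 by rw [Even.pow_abs (by decide)]]
  ring

theorem descent (A : Pt) : A ∈ H := by
  induction h : S A using Nat.strong_induction_on generalizing A with
  | _ n ih =>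
  subst h
  obtain ⟨w, -, hw⟩ := exists_w A
  obtain ⟨a, c, d, h1, h2, hc, h3⟩ := fermat (nat_eq A hw) A.u.reduced.symm
  have hu := abs_u A
  rw [h1] at hu
  rcases Nat.eq_zero_or_pos d with rfl | hd
  · exact mem_of_u (B := 0) (by simpa using hu) (zero_mem _)
  have hc' : (0 : ℚ) < c := by exact_mod_cast hc
  rw [h2] at hu
  push_cast at hu
  rcases h3 with h3 | h3
  · have h4 : (a : ℚ) ^ 2 + c ^ 4 = 2 * d ^ 4 := by exact_mod_cast h3
    have hD : (0 : ℚ) < c ^ 2 + 2 * d ^ 2 := by positivity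
    let R : Pt := ⟨(a - d * c) / (c ^ 2 + 2 * d ^ 2),
      (-a * (c ^ 2 - 2 * d ^ 2) + 4 * d * c * (d ^ 2 + c ^ 2)) / (c ^ 2 + 2 * d ^ 2) ^ 2, by
        rw [div_pow, div_pow, tw1 _ _ _ h4]; field_simp⟩
    have hR : R ∈ H := by
      by_cases h5 : c = 1 ∧ d = 1
      · obtain ⟨rfl, rfl⟩ := h5
        obtain rfl : a = 1 := by nlinarith
        exact mem_of_u (B := 0) (by simp [R]) (zero_mem _)
      refine ih _ ?_ R rfl
      have := den_le (a - d * c) (c ^ 2 + 2 * d ^ 2) (by positivity)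
      push_cast at this
      refine this.trans_lt ?_
      rw [h2]
      have k1 : c ^ 2 ≤ c ^ 4 := Nat.pow_le_pow_right hc (by norm_num)
      have k2 : d ^ 2 ≤ d ^ 4 := Nat.pow_le_pow_right hd (by norm_num)
      by_cases h6 : c = 1
      · have : d ^ 2 < d ^ 4 := Nat.pow_lt_pow_right (by omega) (by norm_num)
        omega
      · have : c ^ 2 < c ^ 4 := Nat.pow_lt_pow_right (by omega) (by norm_num)
        omega
    refine mem_of_u ?_ (add_mem (add_mem hR hR) P_mem)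
    rw [hu, addP_u, add_u, add_v]
    have := tw2 a c d _ _ _ h4 rfl rfl rfl
    simp only [R]
    generalize (a : ℚ) - d * c = N at *
    generalize -(a : ℚ) * (c ^ 2 - 2 * d ^ 2) + 4 * d * c * (d ^ 2 + c ^ 2) = M at *
    generalize (c : ℚ) ^ 2 + 2 * d ^ 2 = D at *
    rw [div_eq_div_iff (by positivity) (by positivity)]
    have h7 : 0 < D ^ 4 + 2 * N ^ 4 := by positivity
    have e1 : 1 + 2 * (N / D) ^ 2 * (N / D) ^ 2 = (D ^ 4 + 2 * N ^ 4) / D ^ 4 := by field_simp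
    rw [e1]
    field_simp
    linear_combination (-1) * this
  · have h4 : (a : ℚ) ^ 2 + 2 * d ^ 4 = c ^ 4 := by exact_mod_cast h3
    let R : Pt := ⟨d / c, a / c ^ 2, by field_simp; linarith⟩
    have hR : R ∈ H := by
      refine ih _ ?_ R rfl
      have := den_le d c hc
      push_cast at this
      refine this.trans_lt ?_
      rw [h2]
      have k1 : c ≤ c ^ 4 := Nat.le_self_pow (by norm_num) c
      have k2 : 0 < d ^ 4 := by positivity
      omega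
    refine mem_of_u ?_ (add_mem hR hR)
    rw [hu, add_u]
    simp only [R]
    field_simp
    ring

lemma exists_zsmul (A : Pt) : ∃ n : ℤ, A = n • P ∨ A = n • P + T := by
  obtain ⟨m, k, h⟩ := AddSubgroup.mem_closure_pair.1 (descent A)
  have h2 : (2 : ℤ) • T = 0 := by rw [two_zsmul, T_add_T]
  refine ⟨m, ?_⟩
  rcases Int.even_or_odd' k with ⟨j, rfl | rfl⟩
  · left; rw [← h, mul_comm, mul_zsmul, h2]; simp
  · right; rw [← h, add_zsmul, mul_comm, mul_zsmul, h2]; simp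

lemma S_addT (A : Pt) : S (A + T) = S A := by simp [S, addT_u]
lemma S_neg (A : Pt) : S (-A) = S A := by simp [S]

lemma S_addP (A : Pt) {w : ℤ} (hw : A.v = w / (S A : ℚ) ^ 2) :
    S (A + P) = (9 * S A ^ 2 + 8 * A.u.num.natAbs ^ 2) /
      Nat.gcd (7 * A.u.num * S A + 6 * w).natAbs (9 * S A ^ 2 + 8 * A.u.num.natAbs ^ 2) := by
  have hs := S_pos A
  have hs' : (0 : ℚ) < S A := by exact_mod_cast hs
  rw [← den_div _ _ (by positivity), S, addP_u, hw]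
  congr 1
  have := Rat.num_div_den A.u
  push_cast
  rw [Nat.cast_natAbs, Int.cast_abs, sq_abs]
  generalize A.u.num = t at *
  rw [← this]
  change _ = (7 * t * (S A : ℚ) + 6 * w) / (9 * (S A : ℚ) ^ 2 + 8 * t ^ 2)
  change (7 * (t / (S A : ℚ)) + _) / (9 + 8 * (t / (S A : ℚ)) ^ 2) = _
  field_simp

lemma S_subP (A : Pt) {w : ℤ} (hw : A.v = w / (S A : ℚ) ^ 2) :
    S (A - P) = (9 * S A ^ 2 + 8 * A.u.num.natAbs ^ 2) /
      Nat.gcd (7 * A.u.num * S A - 6 * w).natAbs (9 * S A ^ 2 + 8 * A.u.num.natAbs ^ 2) := by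
  have := S_addP (-A) (w := w) (by rw [S_neg]; exact hw)
  rw [S_neg, neg_u, Rat.num_neg_eq_neg_num, Int.natAbs_neg] at this
  rw [← S_neg, neg_sub, sub_eq_neg_add, this,
    show 7 * -A.u.num * S A + 6 * w = -(7 * A.u.num * S A - 6 * w) by ring, Int.natAbs_neg]

lemma para_aux {s t w : ℤ} {D : ℕ} (hD : (D : ℤ) = 9 * s ^ 2 + 8 * t ^ 2) (hc : IsCoprime s t)
    (hw : w ^ 2 = s ^ 4 - 2 * t ^ 4) (h2 : D % 2 = 1) :
    D ∣ Nat.gcd (7 * t * s + 6 * w).natAbs D * Nat.gcd (7 * t * s - 6 * w).natAbs D ∧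
    Nat.gcd (7 * t * s + 6 * w).natAbs D * Nat.gcd (7 * t * s - 6 * w).natAbs D ∣ 3 * D := by
  constructor
  · rw [Nat.gcd_comm _ D, Nat.gcd_comm _ D, Nat.dvd_gcd_mul_gcd_iff_dvd_mul, ← Int.natAbs_mul,
      ← Int.natCast_dvd, hD]
    exact ⟨9 * t ^ 2 - 4 * s ^ 2, by linear_combination (-36) * hw⟩
  set g := Nat.gcd (7 * t * s + 6 * w).natAbs D
  set g' := Nat.gcd (7 * t * s - 6 * w).natAbs D
  rw [← Nat.gcd_mul_lcm]
  refine Nat.mul_dvd_mul ?_ (Nat.lcm_dvd (Nat.gcd_dvd_right _ _) (Nat.gcd_dvd_right _ _))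
  set e := Nat.gcd g g'
  have e1 : (e : ℤ) ∣ 7 * t * s + 6 * w :=
    Int.natCast_dvd.2 ((Nat.gcd_dvd_left _ _).trans (Nat.gcd_dvd_left _ _))
  have e2 : (e : ℤ) ∣ 7 * t * s - 6 * w :=
    Int.natCast_dvd.2 ((Nat.gcd_dvd_right _ _).trans (Nat.gcd_dvd_left _ _))
  have e3 : e ∣ D := (Nat.gcd_dvd_left _ _).trans (Nat.gcd_dvd_right _ _)
  have e4 : e ∣ 4 * (3 * w.natAbs) := by
    have := dvd_sub e1 e2
    rw [show 7 * t * s + 6 * w - (7 * t * s - 6 * w) = 4 * (3 * w) by ring, Int.natCast_dvd] at this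
    simpa [Int.natAbs_mul] using this
  have e5 : e.Coprime 4 := by
    apply Nat.Coprime.coprime_dvd_left e3
    exact Nat.Coprime.pow_right 2 ((Nat.coprime_two_right).2 (Nat.odd_iff.2 h2))
  have e6 : e.Coprime w.natAbs := by
    apply Nat.Coprime.symm
    apply Nat.coprime_of_dvd
    intro p hp h3 h4
    have p1 : (p : ℤ) ∣ w := Int.natCast_dvd.2 h3
    have p2 : (p : ℤ) ∣ 9 * s ^ 2 + 8 * t ^ 2 := hD ▸ Int.natCast_dvd_natCast.2 (h4.trans e3)
    have p3 : (p : ℤ) ∣ s ^ 4 - 2 * t ^ 4 := hw ▸ (p1.trans (dvd_pow_self w two_ne_zero))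
    have p4 : (p : ℤ) ∣ 7 * t * s := by
      have := dvd_sub ((Int.natCast_dvd_natCast.2 h4).trans e1) (p1.mul_left 6)
      simpa using this
    have hp' : Prime (p : ℤ) := Nat.prime_iff_prime_int.1 hp
    have n2 : ¬ (p : ℤ) ∣ 2 := fun h => by
      have h5 : p ∣ 2 := by exact_mod_cast h
      obtain rfl := (Nat.prime_dvd_prime_iff_eq hp Nat.prime_two).1 h5
      have := h4.trans e3
      omega
    have nst : (p : ℤ) ∣ s → (p : ℤ) ∣ t → False := fun k1 k2 =>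
      hp'.not_unit (hc.isUnit_of_dvd' k1 k2)
    have ns : ¬ (p : ℤ) ∣ s := fun k => by
      have := dvd_sub (k.trans (dvd_pow_self s (by norm_num : 4 ≠ 0))) p3
      rw [sub_sub_cancel] at this
      exact nst k (hp'.dvd_of_dvd_pow ((hp'.dvd_or_dvd this).resolve_left n2))
    have nt : ¬ (p : ℤ) ∣ t := fun k => by
      have := dvd_add p3 ((k.trans (dvd_pow_self t (by norm_num : 4 ≠ 0))).mul_left 2)
      rw [sub_add_cancel] at this
      exact ns (hp'.dvd_of_dvd_pow this)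
    have h7 : (p : ℤ) ∣ 7 :=
      (hp'.dvd_or_dvd ((hp'.dvd_or_dvd p4).resolve_right ns)).resolve_right nt
    have h8 : p ∣ 7 := by exact_mod_cast h7
    obtain rfl := (Nat.prime_dvd_prime_iff_eq hp (by norm_num)).1 h8
    rw [← ZMod.intCast_zmod_eq_zero_iff_dvd] at p2 ns
    push_cast at p2
    generalize (s : ZMod 7) = a at *
    generalize (t : ZMod 7) = b at *
    revert a b
    decide
  exact e6.dvd_of_dvd_mul_right (e5.dvd_of_dvd_mul_left e4)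

lemma para (A : Pt) : 3 * S A ^ 2 ≤ S (A + P) * S (A - P) ∧ S (A + P) * S (A - P) ≤ 17 * S A ^ 2 := by
  obtain ⟨w, hv, hw⟩ := exists_w A
  have h1 := nat_eq A hw
  obtain ⟨h2, -, -⟩ := par h1 A.u.reduced.symm
  rw [S_addP A hv, S_subP A hv]
  have hs := S_pos A
  have ht : A.u.num.natAbs ≤ S A :=
    (Nat.pow_le_pow_iff_left (by norm_num : 4 ≠ 0)).1 (by omega)
  have ht2 : A.u.num.natAbs ^ 2 ≤ S A ^ 2 := Nat.pow_le_pow_left ht 2
  obtain ⟨k1, k2⟩ := para_aux (s := S A) (t := A.u.num) (w := w)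
    (D := 9 * S A ^ 2 + 8 * A.u.num.natAbs ^ 2) (by push_cast; rw [sq_abs])
    (Int.isCoprime_iff_gcd_eq_one.2 A.u.reduced.symm) hw
    (by simp [Nat.add_mod, Nat.mul_mod, Nat.pow_mod, h2])
  have hD : 0 < 9 * S A ^ 2 + 8 * A.u.num.natAbs ^ 2 := by positivity
  have hD1 : 9 * S A ^ 2 ≤ 9 * S A ^ 2 + 8 * A.u.num.natAbs ^ 2 := by omega
  have hD2 : 9 * S A ^ 2 + 8 * A.u.num.natAbs ^ 2 ≤ 17 * S A ^ 2 := by omega
  generalize 9 * S A ^ 2 + 8 * A.u.num.natAbs ^ 2 = D at *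
  rw [Nat.div_mul_div_comm (Nat.gcd_dvd_right _ _) (Nat.gcd_dvd_right _ _)]
  have hg : 0 < Nat.gcd (7 * A.u.num * S A + 6 * w).natAbs D *
      Nat.gcd (7 * A.u.num * S A - 6 * w).natAbs D :=
    Nat.mul_pos (Nat.gcd_pos_of_pos_right _ hD) (Nat.gcd_pos_of_pos_right _ hD)
  have k3 := Nat.le_of_dvd hg k1
  have k4 := Nat.le_of_dvd (by omega) k2
  generalize Nat.gcd (7 * A.u.num * S A + 6 * w).natAbs D *
      Nat.gcd (7 * A.u.num * S A - 6 * w).natAbs D = g at *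
  constructor
  · rw [Nat.le_div_iff_mul_le hg]
    nlinarith
  · exact (Nat.div_le_of_le_mul (Nat.mul_le_mul_right D k3)).trans hD2

end Pt

end Vale.Agent.P345
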