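import Mathlib

namespace Vale.Agent.P345

/-- polynomial functions with natural coefficients -/
inductive NP {α : Type} : ((α → ℕ) → ℕ) → Prop
  | proj (i : α) : NP fun v => v i
  | const (n : ℕ) : NP fun _ => n
  | add {f g : (α → ℕ) → ℕ} : NP f → NP g → NP fun v => f v + g v
  | mul {f g : (α → ℕ) → ℕ} : NP f → NP g → NP fun v => f v * g v

lemma NP.subst {α β : Type} {f : (α → ℕ) → ℕ} (hf : NP f) {g : α → (β → ℕ) → ℕ}
    (hg : ∀ i, NP (g i)) : NP fun v => f fun i => g i v := by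
  induction hf with
  | proj i => exact hg i
  | const n => exact NP.const n
  | add _ _ h1 h2 => exact h1.add h2
  | mul _ _ h1 h2 => exact h1.mul h2

lemma NP.re {α β : Type} {f : (α → ℕ) → ℕ} (hf : NP f) (σ : α → β) :
    NP fun v : β → ℕ => f fun i => v (σ i) := hf.subst fun i => NP.proj (σ i)

lemma NP.sum {α ι : Type} (s : Finset ι) {f : ι → (α → ℕ) → ℕ} (hf : ∀ i, NP (f i)) :
    NP fun v => ∑ i ∈ s, f i v := by
  classical
  induction s using Finset.induction_on with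
  | empty => simpa using NP.const 0
  | insert a s ha ih => simpa [Finset.sum_insert ha] using (hf a).add ih

lemma NP.poly {α : Type} {f : (α → ℕ) → ℕ} (hf : NP f) : ∃ p : MvPolynomial α ℤ,
    ∀ v : α → ℕ, MvPolynomial.eval (fun i => (v i : ℤ)) p = f v := by
  induction hf with
  | proj i => exact ⟨MvPolynomial.X i, by simp⟩
  | const n => exact ⟨MvPolynomial.C n, by simp⟩
  | add _ _ h1 h2 =>
    obtain ⟨p, hp⟩ := h1
    obtain ⟨q, hq⟩ := h2
    exact ⟨p + q, by simp [hp, hq]⟩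
  | mul _ _ h1 h2 =>
    obtain ⟨p, hp⟩ := h1
    obtain ⟨q, hq⟩ := h2
    exact ⟨p * q, by simp [hp, hq]⟩

/-- single-fold Diophantine relations -/
class SF {α : Type} (S : (α → ℕ) → Prop) : Prop where
  out : ∃ (β : Type) (_ : Finite β) (f g : (α ⊕ β → ℕ) → ℕ), NP f ∧ NP g ∧
    (∀ a, S a ↔ ∃ w, f (Sum.elim a w) = g (Sum.elim a w)) ∧
    ∀ a w w', f (Sum.elim a w) = g (Sum.elim a w) → f (Sum.elim a w') = g (Sum.elim a w') → w = w'

/-- functions with single-fold graph -/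
class SFn {α : Type} (f : (α → ℕ) → ℕ) : Prop where
  out : SF fun v : Option α → ℕ => f (fun i => v (some i)) = v none

variable {α : Type}

lemma SF.congr {S S' : (α → ℕ) → Prop} (h : SF S) (e : ∀ v, S v ↔ S' v) : SF S' :=
  (funext fun v => propext (e v) : S = S') ▸ h

lemma SFn.congr {f f' : (α → ℕ) → ℕ} (h : SFn f) (e : ∀ v, f v = f' v) : SFn f' :=
  (funext e : f = f') ▸ h

lemma SF.npEq {f g : (α → ℕ) → ℕ} (hf : NP f) (hg : NP g) : SF fun v => f v = g v :=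
  ⟨⟨Empty, inferInstance, _, _, hf.re Sum.inl, hg.re Sum.inl, fun a => by simp,
    fun _ _ _ _ _ => Subsingleton.elim _ _⟩⟩

lemma SF.subst {β : Type} {S : (α → ℕ) → Prop} (h : SF S) {g : α → (β → ℕ) → ℕ}
    (hg : ∀ i, NP (g i)) : SF fun v => S fun i => g i v := by
  obtain ⟨γ, hγ, p, q, hp, hq, h1, h2⟩ := h.out
  let G : α ⊕ γ → (β ⊕ γ → ℕ) → ℕ :=
    Sum.elim (fun i v => g i fun j => v (Sum.inl j)) fun c v => v (Sum.inr c)
  have hG : ∀ i, NP (G i) := by
    rintro (i | c)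
    · exact (hg i).re Sum.inl
    · exact NP.proj _
  have e : ∀ a w, (fun i => G i (Sum.elim a w)) = Sum.elim (fun i => g i a) w := by
    intro a w
    funext i
    rcases i with i | c <;> rfl
  refine ⟨⟨γ, hγ, _, _, hp.subst hG, hq.subst hG, fun a => ?_, fun a w w' => ?_⟩⟩
  · simp only [e]; exact h1 _
  · simp only [e]; exact h2 _ _ _

lemma SF.re {β : Type} {S : (α → ℕ) → Prop} (h : SF S) (σ : α → β) :
    SF fun v : β → ℕ => S fun i => v (σ i) := h.subst fun i => NP.proj (σ i)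

lemma sq_iff (a b c d : ℕ) : a * a + b * b + (c * c + d * d) = 2 * (a * b) + 2 * (c * d) ↔
    a = b ∧ c = d := by
  constructor
  · intro h
    zify at h ⊢
    constructor <;> nlinarith [sq_nonneg ((a : ℤ) - b), sq_nonneg ((c : ℤ) - d)]
  · rintro ⟨rfl, rfl⟩; ring

instance SF.and (S S' : (α → ℕ) → Prop) [h : SF S] [h' : SF S'] : SF fun v => S v ∧ S' v := by
  obtain ⟨γ, hγ, p, q, hp, hq, h1, h2⟩ := h.out
  obtain ⟨γ', hγ', p', q', hp', hq', h1', h2'⟩ := h'.out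
  let σ : α ⊕ γ → α ⊕ (γ ⊕ γ') := Sum.map id Sum.inl
  let σ' : α ⊕ γ' → α ⊕ (γ ⊕ γ') := Sum.map id Sum.inr
  have e : ∀ (a : α → ℕ) (w : γ ⊕ γ' → ℕ), (fun i => Sum.elim a w (σ i)) =
      Sum.elim a fun c => w (Sum.inl c) := by
    intro a w; funext i; rcases i with i | c <;> rfl
  have e' : ∀ (a : α → ℕ) (w : γ ⊕ γ' → ℕ), (fun i => Sum.elim a w (σ' i)) =
      Sum.elim a fun c => w (Sum.inr c) := by
    intro a w; funext i; rcases i with i | c <;> rfl
  have A := hp.re σ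
  have B := hq.re σ
  have C := hp'.re σ'
  have D := hq'.re σ'
  refine ⟨⟨γ ⊕ γ', inferInstance, _, _, ((A.mul A).add (B.mul B)).add ((C.mul C).add (D.mul D)),
    ((NP.const 2).mul (A.mul B)).add ((NP.const 2).mul (C.mul D)), fun a => ?_,
    fun a w w' => ?_⟩⟩
  · simp only [sq_iff, e, e', h1, h1']
    constructor
    · rintro ⟨⟨w, hw⟩, w', hw'⟩
      exact ⟨Sum.elim w w', hw, hw'⟩
    · rintro ⟨w, hw, hw'⟩
      exact ⟨⟨_, hw⟩, _, hw'⟩
  · simp only [sq_iff, e, e']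
    rintro ⟨k1, k2⟩ ⟨k3, k4⟩
    funext i
    rcases i with i | i
    · exact congrFun (h2 _ _ _ k1 k3) i
    · exact congrFun (h2' _ _ _ k2 k4) i

lemma SF.ex {β : Type} [Finite β] (R : (α → ℕ) → (β → ℕ) → Prop)
    (h : SF fun u : α ⊕ β → ℕ => R (fun i => u (Sum.inl i)) fun j => u (Sum.inr j))
    (hu : ∀ v w w', R v w → R v w' → w = w') : SF fun v => ∃ w, R v w := by
  obtain ⟨γ, hγ, p, q, hp, hq, h1, h2⟩ := h.out
  let σ : (α ⊕ β) ⊕ γ → α ⊕ (β ⊕ γ) := Equiv.sumAssoc _ _ _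
  have e : ∀ (a : α → ℕ) (w : β ⊕ γ → ℕ), (fun i => Sum.elim a w (σ i)) =
      Sum.elim (Sum.elim a fun c => w (Sum.inl c)) fun c => w (Sum.inr c) := by
    intro a w; funext i; rcases i with (i | c) | c <;> rfl
  refine ⟨⟨β ⊕ γ, inferInstance, _, _, hp.re σ, hq.re σ, fun a => ?_, fun a w w' => ?_⟩⟩
  · simp only [e]
    constructor
    · rintro ⟨w, hw⟩
      obtain ⟨w', hw'⟩ := (h1 (Sum.elim a w)).1 hw
      exact ⟨Sum.elim w w', hw'⟩
    · rintro ⟨w, hw⟩
      exact ⟨_, (h1 _).2 ⟨_, hw⟩⟩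
  · simp only [e]
    intro k1 k2
    have k3 := hu a _ _ ((h1 _).2 ⟨_, k1⟩) ((h1 _).2 ⟨_, k2⟩)
    change (fun c => w (Sum.inl c)) = fun c => w' (Sum.inl c) at k3
    rw [← k3] at k2
    funext i
    rcases i with i | i
    · exact congrFun k3 i
    · exact congrFun (h2 _ _ _ k1 k2) i

lemma SF.ex1 (R : (α → ℕ) → ℕ → Prop)
    (h : SF fun u : Option α → ℕ => R (fun i => u (some i)) (u none))
    (hu : ∀ v w w', R v w → R v w' → w = w') : SF fun v => ∃ w, R v w := by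
  have := SF.ex (fun v (w : Unit → ℕ) => R v (w ()))
    (h.re fun o => o.elim (Sum.inr ()) Sum.inl) fun v w w' h1 h2 => funext fun _ => hu _ _ _ h1 h2
  exact this.congr fun v => ⟨fun ⟨w, hw⟩ => ⟨_, hw⟩, fun ⟨w, hw⟩ => ⟨fun _ => w, hw⟩⟩

lemma or_iff (a b c d s t : ℕ) : (a * a + b * b + s) * (c * c + d * d + t) + 4 * (a * b * (c * d)) =
    2 * (a * b) * (c * c + d * d + t) + 2 * (c * d) * (a * a + b * b + s) ↔
    (a = b ∧ s = 0) ∨ (c = d ∧ t = 0) := by
  zify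
  rw [← sub_eq_zero, show ((a : ℤ) * a + b * b + s) * (c * c + d * d + t) + 4 * (a * b * (c * d)) -
    (2 * (a * b) * (c * c + d * d + t) + 2 * (c * d) * (a * a + b * b + s)) =
    ((a - b) ^ 2 + s) * ((c - d) ^ 2 + t) by ring, mul_eq_zero,
    add_eq_zero_iff_of_nonneg (sq_nonneg _) (Nat.cast_nonneg _),
    add_eq_zero_iff_of_nonneg (sq_nonneg _) (Nat.cast_nonneg _)]
  simp [sub_eq_zero]

lemma SF.or {S S' : (α → ℕ) → Prop} (h : SF S) (h' : SF S') (hd : ∀ v, S v → S' v → False) :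
    SF fun v => S v ∨ S' v := by
  obtain ⟨γ, hγ, p, q, hp, hq, h1, h2⟩ := h.out
  obtain ⟨γ', hγ', p', q', hp', hq', h1', h2'⟩ := h'.out
  have := Fintype.ofFinite γ
  have := Fintype.ofFinite γ'
  let σ : α ⊕ γ → α ⊕ (γ ⊕ γ') := Sum.map id Sum.inl
  let σ' : α ⊕ γ' → α ⊕ (γ ⊕ γ') := Sum.map id Sum.inr
  have e : ∀ (a : α → ℕ) (w : γ ⊕ γ' → ℕ), (fun i => Sum.elim a w (σ i)) =
      Sum.elim a fun c => w (Sum.inl c) := by
    intro a w; funext i; rcases i with i | c <;> rfl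
  have e' : ∀ (a : α → ℕ) (w : γ ⊕ γ' → ℕ), (fun i => Sum.elim a w (σ' i)) =
      Sum.elim a fun c => w (Sum.inr c) := by
    intro a w; funext i; rcases i with i | c <;> rfl
  have A := hp.re σ
  have B := hq.re σ
  have C := hp'.re σ'
  have D := hq'.re σ'
  have s : NP fun v : α ⊕ (γ ⊕ γ') → ℕ => ∑ i, v (Sum.inr (Sum.inr i)) :=
    NP.sum _ fun i => NP.proj _
  have t : NP fun v : α ⊕ (γ ⊕ γ') → ℕ => ∑ i, v (Sum.inr (Sum.inl i)) :=
    NP.sum _ fun i => NP.proj _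
  have E := ((A.mul A).add (B.mul B)).add s
  have F := ((C.mul C).add (D.mul D)).add t
  refine ⟨⟨γ ⊕ γ', inferInstance, _, _, (E.mul F).add ((NP.const 4).mul ((A.mul B).mul (C.mul D))),
    (((NP.const 2).mul (A.mul B)).mul F).add (((NP.const 2).mul (C.mul D)).mul E), fun a => ?_,
    fun a w w' => ?_⟩⟩
  · simp only [or_iff, e, e', h1, h1']
    constructor
    · rintro (⟨w, hw⟩ | ⟨w, hw⟩)
      · exact ⟨Sum.elim w 0, Or.inl ⟨hw, by simp⟩⟩
      · exact ⟨Sum.elim 0 w, Or.inr ⟨hw, by simp⟩⟩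
    · rintro ⟨w, hw | hw⟩
      · exact Or.inl ⟨_, hw.1⟩
      · exact Or.inr ⟨_, hw.1⟩
  · simp only [or_iff, e, e', Sum.elim_inr, Finset.sum_eq_zero_iff, Finset.mem_univ, true_imp_iff]
    rintro (k | k) (k' | k')
    · funext i
      rcases i with i | i
      · exact congrFun (h2 _ _ _ k.1 k'.1) i
      · rw [k.2, k'.2]
    · exact (hd a ((h1 _).2 ⟨_, k.1⟩) ((h1' _).2 ⟨_, k'.1⟩)).elim
    · exact (hd a ((h1 _).2 ⟨_, k'.1⟩) ((h1' _).2 ⟨_, k.1⟩)).elim
    · funext i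
      rcases i with i | i
      · rw [k.2, k'.2]
      · exact congrFun (h2' _ _ _ k.1 k'.1) i

lemma SF.all {ι : Type} [Finite ι] {S : ι → (α → ℕ) → Prop} (h : ∀ i, SF (S i)) :
    SF fun v => ∀ i, S i v := by
  classical
  have := Fintype.ofFinite ι
  have key : ∀ s : Finset ι, SF fun v => ∀ i ∈ s, S i v := by
    intro s
    induction s using Finset.induction_on with
    | empty => exact (SF.npEq (NP.const 0) (NP.const 0)).congr (by simp)
    | insert a s _ ih => exact (SF.and _ _ (h := h a) (h' := ih)).congr (by simp)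
  exact (key Finset.univ).congr (by simp)

lemma SFn.np {f : (α → ℕ) → ℕ} (hf : NP f) : SFn f := ⟨SF.npEq (hf.re some) (NP.proj none)⟩

lemma SFn.re {β : Type} {f : (α → ℕ) → ℕ} (h : SFn f) (σ : α → β) :
    SFn fun v : β → ℕ => f fun i => v (σ i) := ⟨h.out.re (Option.map σ)⟩

lemma SF.comp {β : Type} [Finite β] {S : (β → ℕ) → Prop} (h : SF S) {f : β → (α → ℕ) → ℕ}
    (hf : ∀ b, SFn (f b)) : SF fun v => S fun b => f b v := by
  have h1 : SF fun u : α ⊕ β → ℕ => ∀ b, f b (fun i => u (Sum.inl i)) = u (Sum.inr b) :=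
    SF.all fun b => (hf b).out.re fun o => o.elim (Sum.inr b) Sum.inl
  have := SF.ex (fun v (w : β → ℕ) => (∀ b, f b v = w b) ∧ S w)
    (SF.and _ _ (h := h1) (h' := h.re Sum.inr))
    fun v w w' k k' => funext fun b => (k.1 b).symm.trans (k'.1 b)
  refine this.congr fun v => ⟨?_, fun h => ⟨_, fun _ => rfl, h⟩⟩
  rintro ⟨w, k1, k2⟩
  rwa [funext k1]

lemma SFn.comp {β : Type} [Finite β] {F : (β → ℕ) → ℕ} (h : SFn F) {f : β → (α → ℕ) → ℕ}
    (hf : ∀ b, SFn (f b)) : SFn fun v => F fun b => f b v :=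
  ⟨h.out.comp (f := fun o => o.elim (fun v => v none) fun b v => f b fun i => v (some i)) (by
    rintro (_ | b)
    · exact SFn.np (NP.proj none)
    · exact (hf b).re some)⟩

lemma SF.of2 (R : ℕ → ℕ → Prop) (h : SF fun v : Fin 2 → ℕ => R (v 0) (v 1))
    (f g : (α → ℕ) → ℕ) [hf : SFn f] [hg : SFn g] : SF fun v => R (f v) (g v) :=
  h.comp (f := ![f, g]) fun b => by fin_cases b <;> assumption

lemma SFn.of1 (F : ℕ → ℕ) (h : SF fun v : Fin 2 → ℕ => F (v 0) = v 1)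
    (f : (α → ℕ) → ℕ) [hf : SFn f] : SFn fun v => F (f v) :=
  (SFn.mk (f := fun v : Unit → ℕ => F (v ())) (h.re fun i => ![some (), none] i)).comp
    (f := fun _ => f) fun _ => hf

lemma SFn.of2 (F : ℕ → ℕ → ℕ) (h : SF fun v : Fin 3 → ℕ => F (v 0) (v 1) = v 2)
    (f g : (α → ℕ) → ℕ) [hf : SFn f] [hg : SFn g] : SFn fun v => F (f v) (g v) :=
  (SFn.mk (f := fun v : Fin 2 → ℕ => F (v 0) (v 1))
    (h.re fun i => ![some 0, some 1, none] i)).comp
    (f := ![f, g]) fun b => by fin_cases b <;> assumption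

lemma SFn.of3 (F : ℕ → ℕ → ℕ → ℕ) (h : SF fun v : Fin 4 → ℕ => F (v 0) (v 1) (v 2) = v 3)
    (f g k : (α → ℕ) → ℕ) [hf : SFn f] [hg : SFn g] [hk : SFn k] :
    SFn fun v => F (f v) (g v) (k v) :=
  (SFn.mk (f := fun v : Fin 3 → ℕ => F (v 0) (v 1) (v 2))
    (h.re fun i => ![some 0, some 1, some 2, none] i)).comp
    (f := ![f, g, k]) fun b => by fin_cases b <;> assumption

section
variable (f g : (α → ℕ) → ℕ) [SFn f] [SFn g]

instance SFn.proj (i : α) : SFn fun v : α → ℕ => v i := SFn.np (NP.proj i)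
instance SFn.const (n : ℕ) : SFn fun _ : α → ℕ => n := SFn.np (NP.const n)
instance SFn.add : SFn fun v => f v + g v :=
  SFn.of2 (· + ·) (SF.npEq ((NP.proj 0).add (NP.proj 1)) (NP.proj 2)) f g
instance SFn.mul : SFn fun v => f v * g v :=
  SFn.of2 (· * ·) (SF.npEq ((NP.proj 0).mul (NP.proj 1)) (NP.proj 2)) f g
instance SF.eq : SF fun v => f v = g v := SF.of2 (· = ·) (SF.npEq (NP.proj 0) (NP.proj 1)) f g

instance SFn.cpow (n : ℕ) : SFn fun v => f v ^ n := by
  induction n with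
  | zero => exact (SFn.const 1).congr (by simp)
  | succ n ih => exact (SFn.mul (fun v => f v ^ n) f).congr fun v => (pow_succ _ _).symm

instance SF.le : SF fun v => f v ≤ g v :=
  SF.of2 (· ≤ ·) ((SF.ex1 (fun v c => v 0 + c = v 1) (by beta_reduce; infer_instance)
    fun v w w' h h' => by omega).congr fun v => ⟨fun ⟨c, h⟩ => by omega,
      fun h => ⟨v 1 - v 0, by omega⟩⟩) f g

instance SF.lt : SF fun v => f v < g v := SF.le (fun v => f v + 1) g

instance SF.ne : SF fun v => ¬ f v = g v :=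
  ((SF.lt f g).or (SF.lt g f) fun v h h' => by omega).congr fun v => by omega

instance SF.nlt : SF fun v => ¬ f v < g v := (SF.le g f).congr fun v => by omega

instance SFn.ite (c : (α → ℕ) → Prop) [∀ v, Decidable (c v)] [h1 : SF c] [h2 : SF fun v => ¬ c v] :
    SFn fun v => if c v then f v else g v :=
  ⟨((SF.and _ _ (h := h1.re some) (h' := SFn.out (f := f))).or
    (SF.and _ _ (h := h2.re some) (h' := SFn.out (f := g))) fun v h h' => h'.1 h.1).congr
      fun v => by split_ifs with h <;> simp [h]⟩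

instance SFn.sub : SFn fun v => f v - g v :=
  SFn.of2 (· - ·) (((inferInstance : SF fun v : Fin 3 → ℕ => v 0 < v 1 ∧ v 2 = 0).or
    (inferInstance : SF fun v : Fin 3 → ℕ => v 0 = v 1 + v 2) fun v h h' => by omega).congr
      fun v => by omega) f g

instance SFn.div : SFn fun v => f v / g v :=
  SFn.of2 (· / ·) (((inferInstance : SF fun v : Fin 3 → ℕ => v 1 = 0 ∧ v 2 = 0).or
    (inferInstance : SF fun v : Fin 3 → ℕ => v 1 * v 2 ≤ v 0 ∧ v 0 < v 1 * (v 2 + 1))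
      fun v h h' => by simp [h.1] at h').congr fun v => by
        rcases Nat.eq_zero_or_pos (v 1) with h | h
        · simp [h, eq_comm]
        · simp only [h.ne', false_and, false_or]
          rw [Nat.div_eq_iff h]
          constructor <;> rintro ⟨h1, h2⟩ <;> constructor <;>
            simp only [mul_add, mul_one, mul_comm (v 2)] at * <;> omega) f g

instance SFn.mod : SFn fun v => f v % g v :=
  (inferInstance : SFn fun v => f v - g v * (f v / g v)).congr fun v => (Nat.mod_def _ _).symm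

lemma SFn.sum {ι : Type} (s : Finset ι) {f : ι → (α → ℕ) → ℕ} (hf : ∀ i, SFn (f i)) :
    SFn fun v => ∑ i ∈ s, f i v := by
  classical
  induction s using Finset.induction_on with
  | empty => simpa using SFn.const 0
  | insert a s ha ih =>
    have := hf a
    simpa [Finset.sum_insert ha] using SFn.add (f a) fun v => ∑ i ∈ s, f i v

lemma cop_iff (a b : ℕ) : (∃ x, x < b + 1 ∧ a * x % (b + 1) = 1 % (b + 1)) ↔
    Nat.gcd a (b + 1) = 1 := by
  constructor
  · rintro ⟨x, -, h⟩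
    exact Nat.coprime_of_mul_modEq_one x h
  · intro h
    exact Nat.exists_mul_mod_eq_of_coprime 1 h (Nat.succ_ne_zero b)

lemma SF.cop : SF fun v => Nat.gcd (f v) (g v + 1) = 1 :=
  SF.of2 (fun a b => Nat.gcd a (b + 1) = 1) ((SF.ex1 (fun v x => x < v 1 + 1 ∧
    v 0 * x % (v 1 + 1) = 1 % (v 1 + 1)) (by beta_reduce; infer_instance)
    fun v x y h h' => by
      have hc := (cop_iff _ _).1 ⟨x, h⟩
      have := Nat.ModEq.cancel_left_of_coprime (c := v 0) (Nat.Coprime.symm hc)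
        (show v 0 * x ≡ v 0 * y [MOD v 1 + 1] from h.2.trans h'.2.symm)
      exact Nat.ModEq.eq_of_lt_of_lt this h.1 h'.1).congr fun v => cop_iff _ _) f g

lemma gcd_iff (a b c : ℕ) : Nat.gcd a b = c ↔ (b = 0 ∧ a = c) ∨
    (0 < b ∧ (0 < c ∧ a % c = 0 ∧ b % c = 0) ∧ Nat.gcd (a / c) (b / c - 1 + 1) = 1) := by
  rcases Nat.eq_zero_or_pos b with rfl | hb
  · simp
  simp only [hb.ne', false_and, false_or, hb, true_and]
  constructor
  · rintro rfl
    have h0 := Nat.gcd_pos_of_pos_right a hb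
    refine ⟨⟨h0, Nat.mod_eq_zero_of_dvd (Nat.gcd_dvd_left _ _),
      Nat.mod_eq_zero_of_dvd (Nat.gcd_dvd_right _ _)⟩, ?_⟩
    rw [Nat.sub_add_cancel (Nat.div_pos (Nat.gcd_le_right _ hb) h0)]
    exact Nat.coprime_div_gcd_div_gcd h0
  · rintro ⟨⟨h0, h1, h2⟩, h3⟩
    obtain ⟨a, rfl⟩ := Nat.dvd_of_mod_eq_zero h1
    obtain ⟨b, rfl⟩ := Nat.dvd_of_mod_eq_zero h2
    rw [Nat.mul_div_cancel_left _ h0, Nat.mul_div_cancel_left _ h0,
      Nat.sub_add_cancel (Nat.pos_of_mul_pos_left hb)] at h3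
    rw [Nat.gcd_mul_left, h3, mul_one]

instance SFn.gcd : SFn fun v => Nat.gcd (f v) (g v) := by
  have h1 : SF fun v : Fin 3 → ℕ => Nat.gcd (v 0 / v 2) (v 1 / v 2 - 1 + 1) = 1 := SF.cop _ _
  exact SFn.of2 Nat.gcd (((inferInstance : SF fun v : Fin 3 → ℕ => v 1 = 0 ∧ v 0 = v 2).or
    (inferInstance : SF fun v : Fin 3 → ℕ => 0 < v 1 ∧ (0 < v 2 ∧ v 0 % v 2 = 0 ∧ v 1 % v 2 = 0) ∧
      Nat.gcd (v 0 / v 2) (v 1 / v 2 - 1 + 1) = 1) fun v h h' => by omega).congr
      fun v => (gcd_iff _ _ _).symm) f g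

end

end Vale.Agent.P345
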