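import Vale.Agent.P345.Desc
import Vale.Agent.P345.SF

namespace Vale.Agent.P345

namespace Pt

def sq (n : ℕ) : ℕ := S (n • P)

lemma sq_pos (n : ℕ) : (0 : ℚ) < sq n := by exact_mod_cast S_pos _

lemma sq_zero : sq 0 = 1 := by simp [sq, S]
lemma sq_one : sq 1 = 3 := by
  simp only [sq, S, one_smul, P]
  norm_num

lemma S_zsmul (n : ℤ) : S (n • P) = sq n.natAbs := by
  rcases Int.natAbs_eq n with h | h
  · conv_lhs => rw [h, natCast_zsmul]
    rfl
  · conv_lhs => rw [h, neg_zsmul, S_neg, natCast_zsmul]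
    rfl

def rt (n : ℕ) : ℚ := sq (n + 1) / sq n

lemma rt_pos (n : ℕ) : 0 < rt n := div_pos (sq_pos _) (sq_pos _)

lemma rt_zero : rt 0 = 3 := by simp [rt, sq_zero, sq_one]

lemma rt_step (n : ℕ) : 3 * rt n ≤ rt (n + 1) ∧ rt (n + 1) ≤ 17 * rt n := by
  have h := para ((n + 1) • P)
  rw [← succ_nsmul, show (n + 1) • P - P = n • P by rw [succ_nsmul]; simp] at h
  change 3 * sq (n + 1) ^ 2 ≤ sq (n + 2) * sq n ∧ sq (n + 2) * sq n ≤ 17 * sq (n + 1) ^ 2 at h
  have h1 : (3 : ℚ) * sq (n + 1) ^ 2 ≤ sq (n + 2) * sq n := by exact_mod_cast h.1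
  have h2 : (sq (n + 2) : ℚ) * sq n ≤ 17 * sq (n + 1) ^ 2 := by exact_mod_cast h.2
  have := sq_pos n
  have := sq_pos (n + 1)
  unfold rt
  constructor
  · rw [← mul_div_assoc, div_le_div_iff₀ (by positivity) (by positivity)]; nlinarith
  · rw [← mul_div_assoc, div_le_div_iff₀ (by positivity) (by positivity)]; nlinarith

lemma rt_bd (n : ℕ) : 3 ^ (n + 1) ≤ rt n ∧ rt n ≤ 27 ^ (n + 1) := by
  induction n with
  | zero => rw [rt_zero]; norm_num
  | succ n ih =>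
    have := rt_step n
    have := rt_pos n
    rw [pow_succ, pow_succ 27]
    constructor <;> linarith

lemma rt_mono : Monotone rt := monotone_nat_of_le_succ fun n => by
  have := rt_step n
  have := rt_pos n
  linarith

lemma sq_succ (n : ℕ) : (sq (n + 1) : ℚ) = rt n * sq n := by
  rw [rt, div_mul_cancel₀ _ (sq_pos n).ne']

lemma sq_lt (n : ℕ) : sq n < sq (n + 1) := by
  have h1 := (rt_bd n).1
  have h2 : (1 : ℚ) < 3 ^ (n + 1) := one_lt_pow₀ (by norm_num) (by omega)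
  have h3 := sq_pos n
  have : (sq n : ℚ) < sq (n + 1) := by rw [sq_succ]; nlinarith
  exact_mod_cast this

lemma sq_le (n : ℕ) : (sq (n + 1) : ℚ) ≤ rt n ^ (n + 1) := by
  induction n with
  | zero => simp [sq_succ, sq_zero]
  | succ n ih =>
    rw [sq_succ, pow_succ' (rt (n + 1))]
    have := rt_pos n
    have := rt_pos (n + 1)
    gcongr
    exact ih.trans (by gcongr; exact rt_mono (Nat.le_succ n))

lemma le_sq (n : ℕ) : 3 ^ (n * (n + 1)) ≤ (sq n : ℚ) ^ 2 := by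
  induction n with
  | zero => simp [sq_zero]
  | succ n ih =>
    rw [sq_succ, mul_pow, show (n + 1) * (n + 1 + 1) = (n + 1) * 2 + n * (n + 1) by ring, pow_add,
      pow_mul]
    have := (rt_bd n).1
    gcongr

def Cond (U : ℕ) (A : Pt) : Prop := S A < U * S (A - P) ∧ U * S A ≤ S (A + P)

lemma cond_T {U : ℕ} {A : Pt} : Cond U (A + T) ↔ Cond U A := by
  rw [Cond, Cond, add_sub_right_comm, add_right_comm, S_addT, S_addT, S_addT]

lemma cond_nat {U n : ℕ} : Cond U ((n + 1) • P) ↔ rt n < U ∧ U ≤ rt (n + 1) := by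
  rw [Cond, ← succ_nsmul, show (n + 1) • P - P = n • P by rw [succ_nsmul]; simp, rt, rt,
    div_lt_iff₀ (sq_pos _), le_div_iff₀ (sq_pos _)]
  norm_cast

lemma cond_int {U : ℕ} (hU : 4 ≤ U) {n : ℤ} (h : Cond U (n • P)) :
    ∃ k : ℕ, n • P = (k + 1) • P := by
  have h2 := h.2
  rw [← add_one_zsmul, S_zsmul, S_zsmul] at h2
  rcases lt_trichotomy n 0 with h0 | rfl | h0
  · obtain ⟨k, hk⟩ : ∃ k : ℕ, n = -(k + 1 : ℕ) := ⟨n.natAbs - 1, by omega⟩
    rw [show n.natAbs = k + 1 by omega, show (n + 1).natAbs = k by omega] at h2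
    have := sq_lt k
    nlinarith
  · simp [sq_zero, sq_one] at h2
    omega
  · exact ⟨n.natAbs - 1, by rw [← natCast_zsmul]; congr 1; omega⟩

def Good (U : ℕ) (A : Pt) : Prop := 0 < A.u ∧ Cond U A

lemma exists_idx {U : ℕ} (hU : 4 ≤ U) : ∃ n, rt n < U ∧ U ≤ rt (n + 1) := by
  classical
  have h : ∃ n, (U : ℚ) ≤ rt (n + 1) := ⟨U, by
    refine le_trans ?_ (rt_bd _).1
    have := Nat.lt_pow_self (n := U + 1 + 1) (by norm_num : 1 < 3)
    exact_mod_cast (by omega : U ≤ 3 ^ (U + 1 + 1))⟩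
  refine ⟨Nat.find h, ?_, Nat.find_spec h⟩
  rcases e : Nat.find h with _ | k
  · rw [rt_zero]; exact_mod_cast (by omega : 3 < U)
  · exact not_le.1 (Nat.find_min h (by omega))

lemma idx_unique {U : ℚ} {n k : ℕ} (h : rt n < U ∧ U ≤ rt (n + 1)) (h' : rt k < U ∧ U ≤ rt (k + 1)) :
    n = k := by
  by_contra hne
  rcases lt_or_gt_of_ne hne with h1 | h1
  · have := rt_mono (show n + 1 ≤ k from h1); linarith
  · have := rt_mono (show k + 1 ≤ n from h1); linarith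

lemma good_form {U : ℕ} (hU : 4 ≤ U) {A : Pt} (h : Cond U A) : ∃ n : ℕ,
    (rt n < U ∧ U ≤ rt (n + 1)) ∧ (A = (n + 1) • P ∨ A = (n + 1) • P + T) := by
  obtain ⟨n, rfl | rfl⟩ := exists_zsmul A
  · obtain ⟨k, hk⟩ := cond_int hU h
    rw [hk] at h ⊢
    exact ⟨k, cond_nat.1 h, Or.inl rfl⟩
  · rw [cond_T] at h
    obtain ⟨k, hk⟩ := cond_int hU h
    rw [hk] at h ⊢
    exact ⟨k, cond_nat.1 h, Or.inr rfl⟩

lemma good_unique {U : ℕ} (hU : 4 ≤ U) {A B : Pt} (h : Good U A) (h' : Good U B) : A = B := by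
  obtain ⟨n, h1, h2⟩ := good_form hU h.2
  obtain ⟨k, h3, h4⟩ := good_form hU h'.2
  obtain rfl := idx_unique h1 h3
  have k1 := h.1
  have k2 := h'.1
  rcases h2 with rfl | rfl <;> rcases h4 with rfl | rfl
  · rfl
  · rw [addT_u] at k2; linarith
  · rw [addT_u] at k1; linarith
  · rfl

lemma exists_good {U : ℕ} (hU : 4 ≤ U) : ∃ A, Good U A := by
  obtain ⟨n, h⟩ := exists_idx hU
  have h1 := cond_nat.2 h
  rcases lt_trichotomy ((n + 1) • P).u 0 with h0 | h0 | h0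
  · exact ⟨_, by rw [addT_u]; linarith, cond_T.2 h1⟩
  · have h2 : sq (n + 1) = 1 := by simp [sq, S, h0]
    have := sq_lt n
    have := S_pos (n • P)
    unfold sq at *
    omega
  · exact ⟨_, h0, h1⟩

lemma good_bd {U : ℕ} (hU : 4 ≤ U) {A : Pt} (h : Good U A) :
    S A ≤ U ^ (U - 1) ∧ ∀ m, 2 ^ (65 * m) ≤ U → U ^ (2 * m) ≤ S A := by
  obtain ⟨n, ⟨h1, h2⟩, h3⟩ := good_form hU h.2
  have e : S A = sq (n + 1) := by
    rcases h3 with rfl | rfl
    · rfl
    · exact S_addT _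
  rw [e]
  constructor
  · have k1 : 3 ^ (n + 1) < U := by exact_mod_cast (rt_bd n).1.trans_lt h1
    have k2 := Nat.lt_pow_self (n := n + 1) (by norm_num : 1 < 3)
    have k3 : (sq (n + 1) : ℚ) ≤ U ^ (n + 1) := (sq_le n).trans (by
      have := rt_pos n
      gcongr)
    have k4 : sq (n + 1) ≤ U ^ (n + 1) := by exact_mod_cast k3
    exact k4.trans (Nat.pow_le_pow_right (by omega) (by omega))
  · intro m hm
    have k1 : U ≤ 27 ^ (n + 2) := by exact_mod_cast h2.trans (rt_bd _).2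
    have k2 : 3 ^ ((n + 1) * (n + 2)) ≤ sq (n + 1) ^ 2 := by exact_mod_cast le_sq (n + 1)
    have k3 : 2 ^ (65 * m) ≤ 2 ^ (5 * (n + 2)) :=
      hm.trans (k1.trans (by rw [pow_mul]; gcongr; norm_num))
    have k4 := (Nat.pow_le_pow_iff_right (by norm_num)).1 k3
    rcases Nat.eq_zero_or_pos m with rfl | h0
    · exact S_pos _
    refine (Nat.pow_le_pow_iff_left two_ne_zero).1 (le_trans ?_ k2)
    calc (U ^ (2 * m)) ^ 2 ≤ ((27 ^ (n + 2)) ^ (2 * m)) ^ 2 := by gcongr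
      _ = 3 ^ (12 * m * (n + 2)) := by
        rw [show 27 = 3 ^ 3 by norm_num, ← pow_mul, ← pow_mul, ← pow_mul]; congr 1; ring
      _ ≤ _ := Nat.pow_le_pow_right (by norm_num) (Nat.mul_le_mul_right _ (by omega))

end Pt

open Pt

def dn (a b D : ℕ) : ℕ := D / Nat.gcd ((a - b) + (b - a)) D

instance SFn.dn {α : Type} (f g k : (α → ℕ) → ℕ) [SFn f] [SFn g] [SFn k] :
    SFn fun v => dn (f v) (g v) (k v) := by unfold Vale.Agent.P345.dn; infer_instance

def Sys (U s t x y : ℕ) : Prop := (0 < t ∧ Nat.gcd t s = 1 ∧ x * y = 0) ∧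
  (x + y) ^ 2 + 2 * t ^ 4 = s ^ 4 ∧
  s < U * dn (7 * t * s + 6 * y) (6 * x) (9 * s ^ 2 + 8 * t ^ 2) ∧
  U * s ≤ dn (7 * t * s + 6 * x) (6 * y) (9 * s ^ 2 + 8 * t ^ 2)

lemma natAbs_sub (a b : ℕ) : ((a : ℤ) - b).natAbs = (a - b) + (b - a) := by omega

lemma sys_iff {U s t x y : ℕ} : Sys U s t x y ↔ ∃ A, Good U A ∧ s = S A ∧ (t : ℤ) = A.u.num ∧
    x * y = 0 ∧ A.v = ((x : ℤ) - y : ℤ) / (S A : ℚ) ^ 2 := by
  have key : ∀ A : Pt, s = S A → (t : ℤ) = A.u.num → A.v = ((x : ℤ) - y : ℤ) / (S A : ℚ) ^ 2 →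
      (Cond U A ↔ s < U * dn (7 * t * s + 6 * y) (6 * x) (9 * s ^ 2 + 8 * t ^ 2) ∧
      U * s ≤ dn (7 * t * s + 6 * x) (6 * y) (9 * s ^ 2 + 8 * t ^ 2)) := by
    intro A h1 h2 h3
    rw [Cond, dn, dn, S_addP A h3, S_subP A h3, ← h1, ← h2, Int.natAbs_natCast, ← natAbs_sub, ← natAbs_sub]
    push_cast
    rw [show (7 : ℤ) * t * s - 6 * (x - y) = 7 * t * s + 6 * y - 6 * x by ring,
      show (7 : ℤ) * t * s + 6 * (x - y) = 7 * t * s + 6 * x - 6 * y by ring]
  constructor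
  · rintro ⟨⟨h1, h2, h3⟩, h4, h5⟩
    have hs : 0 < s := Nat.pos_of_ne_zero (by rintro rfl; have := Nat.pow_pos (n := 4) h1; omega)
    have hs' : (0 : ℚ) < s := by exact_mod_cast hs
    have h3' : (x : ℚ) * y = 0 := by exact_mod_cast h3
    have h4' : ((x : ℚ) + y) ^ 2 + 2 * t ^ 4 = s ^ 4 := by exact_mod_cast h4
    let A : Pt := ⟨t / s, (x - y) / s ^ 2, by field_simp; linear_combination h4' - 4 * h3'⟩
    have hc : (t : ℤ).natAbs.Coprime (s : ℤ).natAbs := h2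
    have e1 : s = S A := by
      have := Rat.den_div_eq_of_coprime (a := t) (b := s) (by exact_mod_cast hs) hc
      rw [Int.cast_natCast, Int.cast_natCast] at this
      exact Int.natCast_inj.1 this.symm
    have e2 : (t : ℤ) = A.u.num := by
      have := Rat.num_div_eq_of_coprime (a := t) (b := s) (by exact_mod_cast hs) hc
      rw [Int.cast_natCast, Int.cast_natCast] at this
      exact this.symm
    have e3 : A.v = ((x : ℤ) - y : ℤ) / (S A : ℚ) ^ 2 := by rw [← e1]; simp [A]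
    exact ⟨A, ⟨by simp only [A]; positivity, (key A e1 e2 e3).2 h5⟩, e1, e2, h3, e3⟩
  · rintro ⟨A, h1, h2, h3, h4, h5⟩
    refine ⟨⟨?_, ?_, h4⟩, ?_, (key A h2 h3 h5).1 h1.2⟩
    · have := Rat.num_pos.2 h1.1
      omega
    · have := A.u.reduced
      rwa [← h3, Int.natAbs_natCast, ← S, ← h2] at this
    · obtain ⟨w, k1, k2⟩ := exists_w A
      have hs' : (0 : ℚ) < S A := by exact_mod_cast S_pos A
      rw [h5, div_left_inj' (by positivity)] at k1
      have k3 : (x : ℤ) - y = w := by exact_mod_cast k1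
      have h4' : (x : ℤ) * y = 0 := by exact_mod_cast h4
      rw [← h3, ← h2, ← k3] at k2
      zify
      linear_combination k2 + 4 * h4'

noncomputable def Vf (U : ℕ) : ℕ := S (exists_good (U := U + 4) (by omega)).choose

lemma Vf_bd (U : ℕ) : Vf U ≤ (U + 4) ^ (U + 3) ∧
    ∀ m, 2 ^ (65 * m) ≤ U + 4 → (U + 4) ^ (2 * m) ≤ Vf U :=
  good_bd (by omega) (exists_good (U := U + 4) (by omega)).choose_spec

instance SFn.Vf {α : Type} (f : (α → ℕ) → ℕ) [SFn f] : SFn fun v => Vf (f v) := by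
  refine SFn.of1 _ ((SF.ex (fun v (w : Fin 3 → ℕ) => Sys (v 0 + 4) (v 1) (w 0) (w 1) (w 2))
    (by unfold Sys; beta_reduce; infer_instance) fun v w w' h h' => ?_).congr fun v => ?_) f
  · obtain ⟨A, h1, -, h3, h4, h5⟩ := sys_iff.1 h
    obtain ⟨B, k1, -, k3, k4, k5⟩ := sys_iff.1 h'
    obtain rfl := good_unique (by omega) h1 k1
    have hs' : (0 : ℚ) < S A := by exact_mod_cast S_pos A
    rw [h5, div_left_inj' (by positivity)] at k5
    have k6 : (w 1 : ℤ) - w 2 = w' 1 - w' 2 := by exact_mod_cast k5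
    rw [mul_eq_zero] at h4 k4
    funext i
    fin_cases i <;> simp <;> omega
  · have h0 := (exists_good (U := v 0 + 4) (by omega)).choose_spec
    constructor
    · rintro ⟨w, h⟩
      obtain ⟨A, h1, h2, -⟩ := sys_iff.1 h
      rw [h2, good_unique (by omega) h1 h0]; rfl
    · intro h
      set A := (exists_good (U := v 0 + 4) (by omega)).choose
      obtain ⟨w, k1, -⟩ := exists_w A
      refine ⟨![A.u.num.natAbs, w.toNat, (-w).toNat], sys_iff.2 ⟨A, h0, h.symm, ?_, ?_, ?_⟩⟩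
      · simpa using (Rat.num_pos.2 h0.1).le
      · simp only [Matrix.cons_val, mul_eq_zero]; omega
      · simp only [Matrix.cons_val]
        rw [Int.toNat_sub_toNat_neg]; exact k1

end Vale.Agent.P345
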