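import Vale.Agent.P345.Growth

namespace Vale.Agent.P345

open Pell

def PellY (a y : ℕ) : Prop := ∃ x, x ^ 2 + y ^ 2 = a ^ 2 * y ^ 2 + 1

instance SF.pellY {α : Type} (f g : (α → ℕ) → ℕ) [SFn f] [SFn g] : SF fun v => PellY (f v) (g v) :=
  SF.of2 PellY (SF.ex1 (fun v x => x ^ 2 + v 1 ^ 2 = v 0 ^ 2 * v 1 ^ 2 + 1)
    (by beta_reduce; infer_instance) fun v x y h h' =>
      Nat.pow_left_injective two_ne_zero (show x ^ 2 = y ^ 2 by omega)) f g

lemma pellY_iff {a y : ℕ} (a1 : 1 < a) : PellY a y ↔ ∃ k, y = yn a1 k := by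
  have h0 : 1 ≤ a * a := Nat.mul_pos (by omega) (by omega)
  constructor
  · rintro ⟨x, h⟩
    have : x * x - (a * a - 1) * y * y = 1 := by
      obtain ⟨d, hd⟩ := Nat.exists_eq_add_of_le h0
      rw [sq a, hd] at h
      rw [hd, Nat.add_sub_cancel_left]
      apply Nat.sub_eq_of_eq_add
      nlinarith
    obtain ⟨k, -, hk⟩ := eq_pell a1 this
    exact ⟨k, hk⟩
  · rintro ⟨k, rfl⟩
    refine ⟨xn a1 k, ?_⟩
    have := pell_eqz a1 k
    rw [dz_val] at this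
    simp only [xz, yz, az] at this
    zify
    linear_combination this

lemma yn_bd {a : ℕ} (a1 : 1 < a) (k : ℕ) :
    (2 * a - 1) ^ k ≤ yn a1 (k + 1) ∧ yn a1 (k + 1) ≤ (2 * a) ^ k := by
  induction k with
  | zero => simp
  | succ k ih =>
    have h1 := yn_succ_succ a1 k
    have h2 : yn a1 k < yn a1 (k + 1) := strictMono_y a1 (Nat.lt_succ_self k)
    rw [pow_succ', pow_succ']
    change _ ≤ yn a1 (k + 2) ∧ yn a1 (k + 2) ≤ _
    constructor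
    · refine (Nat.mul_le_mul_left _ ih.1).trans ?_
      rw [Nat.sub_mul]
      omega
    · exact le_trans (by omega) (Nat.mul_le_mul_left _ ih.2)

lemma yn_idx {a M n k : ℕ} (a1 : 1 < a) (hM : M ≤ a) (hM2 : 2 ≤ M)
    (h1 : yn a1 k % (a - 1) = n + 1) (h2 : yn a1 k ≤ M ^ (M - 1)) : k = n + 1 := by
  have h3 : k % (a - 1) = n + 1 := Eq.trans (yn_modEq_a_sub_one a1 k).symm h1
  have h4 : k < a := by
    by_contra h
    have k1 : yn a1 (a - 1 + 1) ≤ yn a1 k := (strictMono_y a1).monotone (by omega)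
    have k2 := (yn_bd a1 (a - 1)).1
    have k3 : M ^ (M - 1) < (2 * a - 1) ^ (M - 1) := Nat.pow_lt_pow_left (by omega) (by omega)
    have k4 : (2 * a - 1) ^ (M - 1) ≤ (2 * a - 1) ^ (a - 1) :=
      Nat.pow_le_pow_right (by omega) (by omega)
    omega
  rcases Nat.lt_or_ge k (a - 1) with h | h
  · rwa [Nat.mod_eq_of_lt h] at h3
  · rw [show k = a - 1 by omega, Nat.mod_self] at h3
    omega

lemma yn_rat {a : ℕ} (a1 : 1 < a) (n : ℕ) {M : ℚ} (hM : M ≤ a) (h0 : 0 < M) :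
    (2 * a : ℚ) ^ n * (1 - n / (2 * M)) ≤ yn a1 (n + 1) ∧ (yn a1 (n + 1) : ℚ) ≤ (2 * a) ^ n := by
  have ha : (1 : ℚ) < a := by exact_mod_cast a1
  obtain ⟨h1, h2⟩ := yn_bd a1 n
  refine ⟨?_, by exact_mod_cast h2⟩
  have h3 : ((2 * a - 1 : ℕ) : ℚ) ^ n ≤ yn a1 (n + 1) := by exact_mod_cast h1
  rw [Nat.cast_sub (by omega)] at h3
  push_cast at h3
  refine le_trans ?_ h3
  have h4 := one_add_mul_le_pow (a := -(1 / (2 * a : ℚ))) (by
    rw [neg_le_neg_iff, div_le_iff₀ (by positivity)]; linarith) n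
  have h5 : (2 * a - 1 : ℚ) = (2 * a) * (1 + -(1 / (2 * a))) := by field_simp; ring
  rw [h5, mul_pow (2 * a : ℚ)]
  gcongr
  refine le_trans ?_ h4
  rw [mul_neg, mul_one_div, ← sub_eq_add_neg]
  gcongr

lemma round_iff {y z Y1 Y2 : ℕ} {W ε : ℚ} (hW : 0 < W) (h0 : 0 ≤ ε) (hε : ε * (y + 1) * 8 ≤ 1)
    (h1 : W * (1 - ε) ≤ Y1) (h2 : Y1 ≤ W) (h3 : z * W * (1 - ε) ≤ Y2) (h4 : Y2 ≤ z * W) :
    (2 * y * Y1 < 2 * Y2 + Y1 ∧ 2 * Y2 < 2 * y * Y1 + Y1) ↔ z = y := by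
  have hy : (0 : ℚ) ≤ y := Nat.cast_nonneg _
  have e1 : W * (ε * (y + 1) * 8) ≤ W := by nlinarith
  have e2 : 0 ≤ W * ε * y := by positivity
  have e3 : 0 ≤ W * ε := by positivity
  have e4 : y * (W * (1 - ε)) ≤ y * Y1 := by gcongr
  have e5 : y * (Y1 : ℚ) ≤ y * W := by gcongr
  constructor
  · rintro ⟨k1, k2⟩
    have k1' : (2 * y * Y1 : ℚ) < 2 * Y2 + Y1 := by exact_mod_cast k1
    have k2' : (2 * Y2 : ℚ) < 2 * y * Y1 + Y1 := by exact_mod_cast k2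
    by_contra hne
    rcases lt_or_gt_of_ne hne with h | h
    · have h5 : (z : ℚ) + 1 ≤ y := by exact_mod_cast h
      have : (z + 1) * W ≤ y * W := by gcongr
      nlinarith
    · have h5 : (y : ℚ) + 1 ≤ z := by exact_mod_cast h
      have h6 : 0 ≤ W * (1 - ε) := by nlinarith
      have : (y + 1) * (W * (1 - ε)) ≤ z * (W * (1 - ε)) := by gcongr
      nlinarith
  · rintro rfl
    have k1' : (2 * z * Y1 : ℚ) < 2 * Y2 + Y1 := by nlinarith
    have k2' : (2 * Y2 : ℚ) < 2 * z * Y1 + Y1 := by nlinarith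
    exact ⟨by exact_mod_cast k1', by exact_mod_cast k2'⟩

def PSys (b n y M Y1 Y2 : ℕ) : Prop := (PellY M Y1 ∧ PellY (b * M) Y2) ∧
  (Y1 % (M - 1) = n + 1 ∧ Y2 % (b * M - 1) = n + 1) ∧ (Y1 ≤ Vf (M - 4) ∧ Y2 ≤ Vf (M - 4)) ∧
  2 * y * Y1 < 2 * Y2 + Y1 ∧ 2 * Y2 < 2 * y * Y1 + Y1

@[irreducible] def big (a : ℕ) : ℕ := a ^ 65

instance sfn_big {α : Type} (f : (α → ℕ) → ℕ) [SFn f] : SFn fun v => big (f v) := by
  unfold big; exact SFn.cpow f 65

instance sf_psys {α : Type} (a b c d e f : (α → ℕ) → ℕ) [SFn a] [SFn b] [SFn c] [SFn d] [SFn e]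
    [SFn f] : SF fun v => PSys (a v) (b v) (c v) (d v) (e v) (f v) := by
  unfold PSys; infer_instance

lemma big1 {a : ℕ} (h : 0 < a) : a ^ 3 ≤ big a := by
  unfold big; exact Nat.pow_le_pow_right h (by norm_num)

lemma big2 {a n : ℕ} (h : 2 ^ n ≤ a) : 2 ^ (65 * n) ≤ big a := by
  unfold big; rw [mul_comm, pow_mul]; exact Nat.pow_le_pow_left h _

lemma psys_iff {x n y M Y1 Y2 : ℕ} (hM : M = big (y + n + x + 4)) :
    PSys (x + 2) n y M Y1 Y2 ↔ ∃ (a1 : 1 < M) (a2 : 1 < (x + 2) * M),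
      Y1 = yn a1 (n + 1) ∧ Y2 = yn a2 (n + 1) ∧ (x + 2) ^ n = y := by
  have m1 : (y + n + x + 4) ^ 3 ≤ M := hM ▸ big1 (by omega)
  have m2 : 4 * n * (y + 1) ≤ M := le_trans (by
    rw [pow_succ, pow_succ, pow_one]; gcongr <;> omega) m1
  have m3 : 4 * 1 * (y + n + x + 4) ≤ M := le_trans (by
    rw [pow_succ, pow_succ, pow_one]; gcongr <;> omega) m1
  have m4 : M ≤ (x + 2) * M := Nat.le_mul_of_pos_left _ (by omega)
  have a1 : 1 < M := by omega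
  have a2 : 1 < (x + 2) * M := by omega
  obtain ⟨v1, v2⟩ := Vf_bd (M - 4)
  rw [show M - 4 + 4 = M by omega] at v1 v2
  rw [show M - 4 + 3 = M - 1 by omega] at v1
  have hM0 : (0 : ℚ) < M := by exact_mod_cast (by omega : 0 < M)
  obtain ⟨r1, r2⟩ := yn_rat a1 n (M := M) le_rfl hM0
  obtain ⟨r3, r4⟩ := yn_rat a2 n (M := M) (by exact_mod_cast m4) hM0
  have e : (2 * (((x + 2) * M : ℕ) : ℚ)) ^ n = ((x + 2) ^ n : ℕ) * (2 * M) ^ n := by
    push_cast; rw [← mul_pow]; ring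
  rw [e] at r3 r4
  have rd := round_iff (y := y) (by positivity) (by positivity) (by
    have : (4 * n * (y + 1) : ℚ) ≤ M := by exact_mod_cast m2
    rw [div_mul_eq_mul_div, div_mul_eq_mul_div, div_le_one (by positivity)]
    linarith) r1 r2 r3 r4
  constructor
  · rintro ⟨⟨h1, h2⟩, ⟨h3, h4⟩, ⟨h5, h6⟩, h7⟩
    obtain ⟨k, rfl⟩ := (pellY_iff a1).1 h1
    obtain ⟨l, rfl⟩ := (pellY_iff a2).1 h2
    obtain rfl := yn_idx a1 le_rfl a1 h3 (h5.trans v1)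
    obtain rfl := yn_idx a2 m4 a1 h4 (h6.trans v1)
    exact ⟨a1, a2, rfl, rfl, rd.1 h7⟩
  · rintro ⟨a1, a2, rfl, rfl, h⟩
    have v3 := v2 n (by
      rw [hM]
      exact big2 ((Nat.pow_le_pow_left (by omega : 2 ≤ x + 2) n).trans (by omega)))
    have b1 : (2 * ((x + 2) * M)) ^ n ≤ M ^ (2 * n) := by
      rw [pow_mul, sq, ← mul_assoc]; gcongr; omega
    refine ⟨⟨(pellY_iff a1).2 ⟨_, rfl⟩, (pellY_iff a2).2 ⟨_, rfl⟩⟩,
      ⟨Eq.trans (yn_modEq_a_sub_one a1 _) (Nat.mod_eq_of_lt (by omega)),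
        Eq.trans (yn_modEq_a_sub_one a2 _) (Nat.mod_eq_of_lt (by omega))⟩,
      ⟨(yn_bd a1 n).2.trans (le_trans (by gcongr) (b1.trans v3)),
        (yn_bd a2 n).2.trans (b1.trans v3)⟩, rd.2 h⟩

lemma SFn.pow2 {α : Type} (f g : (α → ℕ) → ℕ) [SFn f] [SFn g] : SFn fun v => (f v + 2) ^ g v := by
  refine SFn.of2 (fun x n => (x + 2) ^ n) ((SF.ex (fun v (w : Fin 2 → ℕ) =>
    PSys (v 0 + 2) (v 1) (v 2) (big (v 2 + v 1 + v 0 + 4)) (w 0) (w 1)) ?_
    fun v w w' h h' => ?_).congr fun v => ?_) f g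
  · beta_reduce; infer_instance
  · obtain ⟨_, _, h1, h2, -⟩ := (psys_iff rfl).1 h
    obtain ⟨_, _, h3, h4, -⟩ := (psys_iff rfl).1 h'
    funext i
    fin_cases i
    · exact h1.trans h3.symm
    · exact h2.trans h4.symm
  · constructor
    · rintro ⟨w, h⟩
      obtain ⟨_, _, -, -, h⟩ := (psys_iff rfl).1 h
      exact h
    · intro h
      have a1 : 1 < big (v 2 + v 1 + v 0 + 4) :=
        (Nat.one_lt_pow (by norm_num) (by omega)).trans_le (big1 (by omega))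
      have a2 : 1 < (v 0 + 2) * big (v 2 + v 1 + v 0 + 4) :=
        a1.trans_le (Nat.le_mul_of_pos_left _ (by omega))
      exact ⟨![yn a1 (v 1 + 1), yn a2 (v 1 + 1)], (psys_iff rfl).2 ⟨a1, a2, rfl, rfl, h⟩⟩

instance (priority := low) SFn.pow {α : Type} (f g : (α → ℕ) → ℕ) [SFn f] [SFn g] :
    SFn fun v => f v ^ g v := by
  have : SFn fun v => (f v - 2 + 2) ^ g v := SFn.pow2 _ g
  refine (inferInstance : SFn fun v => if f v < 2 then (if g v = 0 then 1 else f v) else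
    (f v - 2 + 2) ^ g v).congr fun v => ?_
  split_ifs with h1 h2
  · simp [h2]
  · obtain h | h : f v = 0 ∨ f v = 1 := by omega
    · simp [h, h2]
    · simp [h]
  · rw [Nat.sub_add_cancel (by omega)]

end Vale.Agent.P345
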