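import Vale.Agent.P345.Ball

namespace Vale.Agent.P345

open Finset

instance sfn_pair {α : Type} (f g : (α → ℕ) → ℕ) [SFn f] [SFn g] :
    SFn fun v => Nat.pair (f v) (g v) := by unfold Nat.pair; infer_instance

instance sfn_fst {α : Type} (f : (α → ℕ) → ℕ) [SFn f] : SFn fun v => (f v).unpair.1 :=
  SFn.of1 (fun n => n.unpair.1) ((SF.ex1 (fun v c => Nat.pair (v 1) c = v 0)
    (by beta_reduce; infer_instance) fun v x y h h' =>
      (Nat.pair_eq_pair.1 (h.trans h'.symm)).2).congr fun v =>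
      ⟨fun ⟨c, h⟩ => by simp [← h], fun h => ⟨(v 0).unpair.2, by simp [← h]⟩⟩) f

instance sfn_snd {α : Type} (f : (α → ℕ) → ℕ) [SFn f] : SFn fun v => (f v).unpair.2 :=
  SFn.of1 (fun n => n.unpair.2) ((SF.ex1 (fun v c => Nat.pair c (v 1) = v 0)
    (by beta_reduce; infer_instance) fun v x y h h' =>
      (Nat.pair_eq_pair.1 (h.trans h'.symm)).1).congr fun v =>
      ⟨fun ⟨c, h⟩ => by simp [← h], fun h => ⟨(v 0).unpair.1, by simp [← h]⟩⟩) f

/-- membership in the graph -/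
def Gr (f : ℕ →. ℕ) (a b : ℕ) : Prop := b ∈ f a

class SFg (f : ℕ →. ℕ) : Prop where
  out : SF fun v : Fin 2 → ℕ => Gr f (v 0) (v 1)

instance sf_gr {α : Type} (f : ℕ →. ℕ) [h : SFg f] (a b : (α → ℕ) → ℕ) [SFn a] [SFn b] :
    SF fun v => Gr f (a v) (b v) := SF.of2 (Gr f) h.out a b

lemma Gr.unique {f : ℕ →. ℕ} {a b c : ℕ} (h : Gr f a b) (h' : Gr f a c) : b = c :=
  Part.mem_unique h h'

lemma mem_prec (p : Part ℕ) (g : ℕ → ℕ → Part ℕ) (n y : ℕ) :
    y ∈ (n.rec p fun k IH => IH >>= g k : Part ℕ) ↔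
      ∃ x : ℕ → ℕ, x 0 ∈ p ∧ (∀ i < n, x (i + 1) ∈ g i (x i)) ∧ x n = y := by
  induction n generalizing y with
  | zero => exact ⟨fun h => ⟨fun _ => y, h, by simp, rfl⟩, fun ⟨x, h, _, e⟩ => e ▸ h⟩
  | succ n ih =>
    simp only [Part.bind_eq_bind, Part.mem_bind_iff] at ih ⊢
    simp only [ih]
    constructor
    · rintro ⟨z, ⟨x, h1, h2, rfl⟩, h3⟩
      refine ⟨fun i => if i = n + 1 then y else x i, by simpa using h1, fun i hi => ?_, by simp⟩
      rcases Nat.lt_succ_iff_lt_or_eq.1 hi with h | rfl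
      · beta_reduce
        rw [if_neg (by omega), if_neg (by omega)]; exact h2 i h
      · simpa using h3
    · rintro ⟨x, h1, h2, rfl⟩
      exact ⟨_, ⟨x, h1, fun i hi => h2 i (by omega), rfl⟩, h2 n (by omega)⟩

def PR (f g : ℕ →. ℕ) (a n y s K Y : ℕ) : Prop := (Y < 2 ^ (K * (n + 1)) ∧ Y % (2 ^ K - 1) = s) ∧
  (∀ i < n + 1, dig K Y i ≤ s) ∧ (Gr f a (dig K Y 0) ∧ dig K Y n = y) ∧
  ∀ i < n, Gr g (Nat.pair a (Nat.pair i (dig K Y i))) (dig K Y (i + 1))

lemma pr_iff {f g : ℕ →. ℕ} {a n y s Y : ℕ} : PR f g a n y s (n + s + 3) Y ↔ ∃ x : ℕ → ℕ,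
    (Gr f a (x 0) ∧ (∀ i < n, Gr g (Nat.pair a (Nat.pair i (x i))) (x (i + 1))) ∧ x n = y) ∧
    s = ∑ i ∈ range (n + 1), x i ∧ Y = code (n + s + 3) (n + 1) x := by
  have key : ∀ x : ℕ → ℕ, (∀ i < n + 1, x i ≤ s) →
      code (n + s + 3) (n + 1) x % (2 ^ (n + s + 3) - 1) = ∑ i ∈ range (n + 1), x i := by
    intro x hx
    simpa using code_sum (k := s) (K := n + s + 3) (n := n + 1) (univ : Finset Unit)
      (x := fun _ => x) (fun _ i hi => (hx i hi).trans_lt Nat.lt_two_pow_self) (by simp; omega)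
  constructor
  · rintro ⟨⟨h1, h2⟩, h3, ⟨h4, h5⟩, h6⟩
    have e : Y = code (n + s + 3) (n + 1) (dig (n + s + 3) Y) := by
      rw [code_dig, Nat.mod_eq_of_lt h1]
    exact ⟨_, ⟨h4, h6, h5⟩, by rw [← key _ h3, ← e, h2], e⟩
  · rintro ⟨x, ⟨h1, h2, h3⟩, h4, rfl⟩
    have k1 : ∀ i < n + 1, x i ≤ s := fun i hi =>
      h4 ▸ single_le_sum (f := x) (fun _ _ => Nat.zero_le _) (mem_range.2 hi)
    have k2 : ∀ i < n + 1, x i < 2 ^ (n + s + 3) := fun i hi =>
      lt_of_le_of_lt (by have := k1 i hi; omega) Nat.lt_two_pow_self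
    refine ⟨⟨code_lt k2, (key x k1).trans h4.symm⟩, fun i hi => ?_, ?_, fun i hi => ?_⟩
    · rw [dig_code k2 hi]; exact k1 i hi
    · rw [dig_code k2 (by omega), dig_code k2 (by omega)]; exact ⟨h1, h3⟩
    · rw [dig_code k2 (by omega), dig_code k2 (by omega)]; exact h2 i hi

lemma sfg_prec (f g : ℕ →. ℕ) [SFg f] [SFg g] : SFg (Nat.unpaired fun a n =>
    n.rec (f a) fun y IH => do let i ← IH; g (Nat.pair a (Nat.pair y i))) := by
  have h1 : SF fun u : Fin 6 → ℕ => PR f g (u 0) (u 1) (u 2) (u 3) (u 4) (u 5) := by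
    have k1 : SF fun u : Fin 6 → ℕ => ∀ i < u 1 + 1, dig (u 4) (u 5) i ≤ u 3 :=
      SF.ball (fun u i => dig (u 4) (u 5) i ≤ u 3) (by beta_reduce; infer_instance) _
    have k2 : SF fun u : Fin 6 → ℕ => ∀ i < u 1,
        Gr g (Nat.pair (u 0) (Nat.pair i (dig (u 4) (u 5) i))) (dig (u 4) (u 5) (i + 1)) :=
      SF.ball (fun u i => Gr g (Nat.pair (u 0) (Nat.pair i (dig (u 4) (u 5) i)))
        (dig (u 4) (u 5) (i + 1))) (by beta_reduce; infer_instance) _
    unfold PR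
    infer_instance
  refine ⟨(SF.ex (fun v (w : Fin 2 → ℕ) => PR f g (v 0).unpair.1 (v 0).unpair.2 (v 1) (w 0)
    ((v 0).unpair.2 + w 0 + 3) (w 1)) ?_ fun v w w' h h' => ?_).congr fun v => ?_⟩
  · refine h1.comp (f := ![fun u => (u (Sum.inl 0)).unpair.1, fun u => (u (Sum.inl 0)).unpair.2,
      fun u => u (Sum.inl 1), fun u => u (Sum.inr 0),
      fun u => (u (Sum.inl 0)).unpair.2 + u (Sum.inr 0) + 3, fun u => u (Sum.inr 1)]) fun b => ?_
    fin_cases b <;> simp <;> infer_instance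
  · obtain ⟨x, ⟨k1, k2, -⟩, k3, k4⟩ := pr_iff.1 h
    obtain ⟨y, ⟨l1, l2, -⟩, l3, l4⟩ := pr_iff.1 h'
    have e : ∀ i < (v 0).unpair.2 + 1, x i = y i := by
      intro i
      induction i with
      | zero => exact fun _ => k1.unique l1
      | succ i ih =>
        intro hi
        have := l2 i (by omega)
        rw [← ih (by omega)] at this
        exact (k2 i (by omega)).unique this
    have e0 : w 0 = w' 0 := k3.trans ((sum_congr rfl fun i hi => e i (mem_range.1 hi)).trans l3.symm)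
    funext i
    fin_cases i
    · exact e0
    · exact k4.trans (by rw [e0, code_congr e]; exact l4.symm)
  · refine Iff.trans ?_ (mem_prec (f (v 0).unpair.1)
      (fun y i => g (Nat.pair (v 0).unpair.1 (Nat.pair y i))) _ _).symm
    constructor
    · rintro ⟨w, h⟩
      obtain ⟨x, h, -⟩ := pr_iff.1 h
      exact ⟨x, h⟩
    · rintro ⟨x, h⟩
      exact ⟨![∑ i ∈ range ((v 0).unpair.2 + 1), x i, code ((v 0).unpair.2 +
        ∑ i ∈ range ((v 0).unpair.2 + 1), x i + 3) ((v 0).unpair.2 + 1) x],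
        pr_iff.2 ⟨x, h, rfl, rfl⟩⟩

theorem sfg_of_partrec {f : ℕ →. ℕ} (hf : Nat.Partrec f) : SFg f := by
  induction hf with
  | zero => exact ⟨(inferInstance : SF fun v : Fin 2 → ℕ => v 1 = 0).congr fun v => by
      simp [Gr, pure, PFun.pure]⟩
  | succ => exact ⟨(inferInstance : SF fun v : Fin 2 → ℕ => v 1 = v 0 + 1).congr fun v => by
      simp [Gr]⟩
  | left => exact ⟨(inferInstance : SF fun v : Fin 2 → ℕ => v 1 = (v 0).unpair.1).congr fun v => by
      simp [Gr]⟩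
  | right => exact ⟨(inferInstance : SF fun v : Fin 2 → ℕ => v 1 = (v 0).unpair.2).congr fun v => by
      simp [Gr]⟩
  | @pair f g _ _ h1 h2 =>
    refine ⟨(inferInstance : SF fun v : Fin 2 → ℕ => Gr f (v 0) (v 1).unpair.1 ∧
      Gr g (v 0) (v 1).unpair.2).congr fun v => ?_⟩
    simp only [Gr, Seq.seq, Part.map_eq_map, Part.bind_eq_bind, Part.mem_bind_iff, Part.mem_map_iff]
    constructor
    · rintro ⟨k1, k2⟩
      exact ⟨_, ⟨_, k1, rfl⟩, _, k2, by simp⟩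
    · rintro ⟨_, ⟨a, k1, rfl⟩, b, k2, e⟩
      simp [← e, k1, k2]
  | @comp f g _ _ h1 h2 =>
    refine ⟨(SF.ex1 (fun (v : Fin 2 → ℕ) c => Gr g (v 0) c ∧ Gr f c (v 1))
      (by beta_reduce; infer_instance) fun v x y h h' => h.1.unique h'.1).congr fun v => ?_⟩
    exact Part.mem_bind_iff.symm
  | prec _ _ h1 h2 => exact sfg_prec _ _
  | @rfind f _ h1 =>
    have k1 : SF fun u : Option (Fin 2) → ℕ => ∃ z, Gr f (Nat.pair (u (some 0)) (u none)) (z + 1) :=
      SF.ex1 (fun u z => Gr f (Nat.pair (u (some 0)) (u none)) (z + 1))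
        (by beta_reduce; infer_instance) fun v x y h h' => by have := h.unique h'; omega
    have k2 : SF fun v : Fin 2 → ℕ => ∀ m < v 1, ∃ z, Gr f (Nat.pair (v 0) m) (z + 1) :=
      SF.ball (fun v m => ∃ z, Gr f (Nat.pair (v 0) m) (z + 1)) k1 _
    refine ⟨(inferInstance : SF fun v : Fin 2 → ℕ => Gr f (Nat.pair (v 0) (v 1)) 0 ∧
      ∀ m < v 1, ∃ z, Gr f (Nat.pair (v 0) m) (z + 1)).congr fun v => ?_⟩
    refine Iff.trans ?_ Nat.mem_rfind.symm
    simp only [Gr, Part.map_eq_map, Part.mem_map_iff, decide_eq_true_eq,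
      decide_eq_false_iff_not, exists_eq_right]
    refine and_congr Iff.rfl (forall₂_congr fun m _ => ⟨fun ⟨z, h⟩ => ⟨_, h, by omega⟩, ?_⟩)
    rintro ⟨z, h, h0⟩
    exact ⟨z - 1, by rwa [Nat.sub_add_cancel (by omega)]⟩

lemma sfn_enc {α : Type} : ∀ (n : ℕ) (f : Fin n → (α → ℕ) → ℕ), (∀ i, SFn (f i)) →
    SFn fun v => Encodable.encode (List.ofFn fun i => f i v)
  | 0, _, _ => (SFn.const 0).congr fun _ => rfl
  | n + 1, f, h => by
    have h1 := sfn_enc n (fun i => f i.succ) fun i => h _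
    have h2 := h 0
    exact (inferInstance : SFn fun v => Nat.pair (f 0 v)
      (Encodable.encode (List.ofFn fun i : Fin n => f i.succ v)) + 1).congr fun v => by
        simp [List.ofFn_succ]

theorem sf_of_re {n : ℕ} {S : (Fin n → ℕ) → Prop} (h : REPred S) : SF S := by
  have h1 := sfg_of_partrec h
  have h2 : SFn fun v : Fin n → ℕ => @Encodable.encode _ Primcodable.toEncodable v :=
    (sfn_enc n (fun i v => v i) fun i => inferInstance).congr fun v => by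
      rw [← List.Vector.toList_ofFn]
      rfl
  refine (sf_gr _ (h := h1) (fun v => @Encodable.encode _ Primcodable.toEncodable v)
    fun _ => 0).congr fun v => ?_
  simpa [Gr] using fun _ => ⟨(), rfl⟩

theorem SF.poly {n : ℕ} {S : (Fin n → ℕ) → Prop} (h : SF S) :
    ∃ (m : ℕ) (P : MvPolynomial (Fin n ⊕ Fin m) ℤ),
      (∀ a, S a ↔ ∃ w : Fin m → ℕ, MvPolynomial.eval (fun i => ((Sum.elim a w i : ℕ) : ℤ)) P = 0) ∧
      ∀ (a : Fin n → ℕ) (w w' : Fin m → ℕ),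
        MvPolynomial.eval (fun i => ((Sum.elim a w i : ℕ) : ℤ)) P = 0 →
        MvPolynomial.eval (fun i => ((Sum.elim a w' i : ℕ) : ℤ)) P = 0 → w = w' := by
  obtain ⟨β, hβ, p, q, hp, hq, h1, h2⟩ := h.out
  obtain ⟨m, ⟨e⟩⟩ := Finite.exists_equiv_fin β
  obtain ⟨P, hP⟩ := (hp.re (Sum.map id e)).poly
  obtain ⟨Q, hQ⟩ := (hq.re (Sum.map id e)).poly
  have k : ∀ (a : Fin n → ℕ) (w : Fin m → ℕ),
      MvPolynomial.eval (fun i => ((Sum.elim a w i : ℕ) : ℤ)) (P - Q) = 0 ↔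
      p (Sum.elim a (w ∘ e)) = q (Sum.elim a (w ∘ e)) := by
    intro a w
    have : (fun i => Sum.elim a w (Sum.map id e i)) = Sum.elim a (w ∘ e) := by
      funext i; rcases i with i | i <;> rfl
    rw [map_sub, hP, hQ, this, sub_eq_zero, Nat.cast_inj]
  refine ⟨m, P - Q, fun a => ?_, fun a w w' => ?_⟩
  · simp only [k, h1]
    exact ⟨fun ⟨w, hw⟩ => ⟨w ∘ e.symm, by simpa [Function.comp_assoc] using hw⟩,
      fun ⟨w, hw⟩ => ⟨_, hw⟩⟩
  · rw [k, k]
    exact fun k1 k2 => e.surjective.injective_comp_right (h2 _ _ _ k1 k2)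

end Vale.Agent.P345
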